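import Crest.Agent.Lib.ModRec.Smoothing

set_option autoImplicit false

namespace Crest.Agent.ModRec

open Crest.OpAlg Filter MeasureTheory
open scoped Topology ComplexInnerProductSpace Nat

variable {H : Type*} [NormedAddCommGroup H] [InnerProductSpace ℂ H] [CompleteSpace H]
variable (S : ModularDatum H)

lemma windowMean_mono {f g : ℝ → ℝ} (hf : Continuous f) (hg : Continuous g) (h : ∀ t, f t ≤ g t)
    (k : ℕ) : windowMean f k ≤ windowMean g k := by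
  simp only [windowMean, setAverage_eq, smul_eq_mul]
  refine mul_le_mul_of_nonneg_left ?_ (by simp)
  exact setIntegral_mono_on hf.continuousOn.integrableOn_Icc hg.continuousOn.integrableOn_Icc
    measurableSet_Icc (fun t _ => h t)

/-- Bound on limits of the window means of `‖R σ_t(a) ξ‖²`. -/
theorem mean_bound (herg : S.Ergodic) (ω : Ultrafilter ℕ) (hω : (ω : Filter ℕ) ≤ atTop)
    (R : H →L[ℂ] H) {a : H →L[ℂ] H} (ha : a ∈ S.M) (η' : ℝ) (hη' : 0 < η') (L : ℝ)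
    (hL : Tendsto (windowMean (fun t => ‖R (S.flow t a S.vac)‖ ^ 2)) (ω : Filter ℕ) (𝓝 L)) :
    L ≤ (‖a S.vac‖ ^ 2 + ‖star a S.vac‖ ^ 2) * (supU S R) ^ 2 + η' := by
  obtain ⟨v, hv, hpt⟩ := pointwise S R ha η' hη'
  set a₀ := R (v S.vac) with ha₀
  set Z₁ := star a * a with hZ₁
  set Z₂ := a * star a with hZ₂
  have hZ₁M : Z₁ ∈ S.M := mul_mem (star_mem ha) ha
  have hZ₂M : Z₂ ∈ S.M := mul_mem ha (star_mem ha)
  set p₁ := ContinuousLinearMap.adjoint v (ContinuousLinearMap.adjoint R a₀) with hp₁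
  set p₂ := ContinuousLinearMap.adjoint R a₀ with hp₂
  have hg₁ : ∀ t, ⟪a₀, R (v (S.flow t Z₁ S.vac))⟫ = ⟪p₁, S.flow t Z₁ S.vac⟫ := by
    intro t
    rw [hp₁, ContinuousLinearMap.adjoint_inner_left, ContinuousLinearMap.adjoint_inner_left]
  have hg₂ : ∀ t, ⟪a₀, R (S.flow t Z₂ (v S.vac))⟫ = ⟪p₂, S.flow t Z₂ (v S.vac)⟫ := by
    intro t
    rw [hp₂, ContinuousLinearMap.adjoint_inner_left]
  have T₁ := flowMean_tendsto S ω herg hω hZ₁M p₁ S.vac
  have T₂ := flowMean_tendsto S ω herg hω hZ₂M p₂ (v S.vac)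
  have hF : Continuous (fun t => ‖R (S.flow t a S.vac)‖ ^ 2) :=
    (R.continuous.comp (continuous_flow_apply S a S.vac)).norm.pow 2
  set g : ℝ → ℂ := fun t => ⟪p₁, S.flow t Z₁ S.vac⟫ + ⟪p₂, S.flow t Z₂ (v S.vac)⟫ with hg
  have hgc : Continuous g := (continuous_coeff S _ _ _).add (continuous_coeff S _ _ _)
  have hG : Continuous (fun t => (g t).re + η') := (Complex.continuous_re.comp hgc).add continuous_const
  have hle : ∀ k, windowMean (fun t => ‖R (S.flow t a S.vac)‖ ^ 2) k ≤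
      windowMean (fun t => (g t).re + η') k := by
    refine windowMean_mono hF hG (fun t => ?_)
    have := hpt t
    rw [hg₁, hg₂] at this
    simpa [hg, Complex.add_re] using this
  have hre : ∀ k : ℕ, 1 ≤ k → windowMean (fun t => (g t).re + η') k =
      (flowMean S Z₁ p₁ S.vac k + flowMean S Z₂ p₂ (v S.vac) k + (η' : ℂ)).re := by
    intro k hk
    have h1 : (fun t => (g t).re + η') = fun t => (g t + (η' : ℂ)).re := by
      ext t; simp
    have h2 := windowMean_eq_re_cmean (g := fun t => g t + (η' : ℂ)) (hgc.add continuous_const) k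
    rw [h1, h2, cmean_add hgc continuous_const, cmean_const _ k hk]
    simp only [hg]
    rw [cmean_add (continuous_coeff S _ _ _) (continuous_coeff S _ _ _)]
    rfl
  have hlim : Tendsto (fun k => (flowMean S Z₁ p₁ S.vac k + flowMean S Z₂ p₂ (v S.vac) k + (η' : ℂ)).re)
      (ω : Filter ℕ)
      (𝓝 ((⟪S.vac, Z₁ S.vac⟫ * ⟪p₁, S.vac⟫ + ⟪S.vac, Z₂ S.vac⟫ * ⟪p₂, v S.vac⟫ + (η' : ℂ)).re)) :=
    Complex.continuous_re.continuousAt.tendsto.comp ((T₁.add T₂).add tendsto_const_nhds)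
  have hev : ∀ᶠ k : ℕ in (ω : Filter ℕ), windowMean (fun t => ‖R (S.flow t a S.vac)‖ ^ 2) k ≤
      (flowMean S Z₁ p₁ S.vac k + flowMean S Z₂ p₂ (v S.vac) k + (η' : ℂ)).re := by
    filter_upwards [hω (eventually_ge_atTop 1)] with k hk
    rw [← hre k hk]
    exact hle k
  have hfin := le_of_tendsto_of_tendsto hL hlim hev
  -- evaluate the limit
  have e1 : ⟪S.vac, Z₁ S.vac⟫ = ((‖a S.vac‖ ^ 2 : ℝ) : ℂ) := by
    have h2 : Z₁ S.vac = star a (a S.vac) := rfl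
    rw [h2, ContinuousLinearMap.star_eq_adjoint, ContinuousLinearMap.adjoint_inner_right,
      inner_self_eq_norm_sq_to_K]
    push_cast
    rfl
  have e2 : ⟪S.vac, Z₂ S.vac⟫ = ((‖star a S.vac‖ ^ 2 : ℝ) : ℂ) := by
    have h2 : Z₂ S.vac = a (star a S.vac) := rfl
    rw [h2]
    have h3 : ⟪S.vac, a (star a S.vac)⟫ = ⟪star a S.vac, star a S.vac⟫ := by
      rw [ContinuousLinearMap.star_eq_adjoint, ContinuousLinearMap.adjoint_inner_left]
    rw [h3, inner_self_eq_norm_sq_to_K]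
    push_cast
    rfl
  have e3 : ⟪p₁, S.vac⟫ = ((‖a₀‖ ^ 2 : ℝ) : ℂ) := by
    rw [hp₁, ContinuousLinearMap.adjoint_inner_left, ContinuousLinearMap.adjoint_inner_left,
      ← ha₀, inner_self_eq_norm_sq_to_K]
    push_cast
    rfl
  have e4 : ⟪p₂, v S.vac⟫ = ((‖a₀‖ ^ 2 : ℝ) : ℂ) := by
    rw [hp₂, ContinuousLinearMap.adjoint_inner_left, ← ha₀, inner_self_eq_norm_sq_to_K]
    push_cast
    rfl
  rw [e1, e2, e3, e4] at hfin
  have e5 : (((‖a S.vac‖ ^ 2 : ℝ) : ℂ) * ((‖a₀‖ ^ 2 : ℝ) : ℂ) +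
      ((‖star a S.vac‖ ^ 2 : ℝ) : ℂ) * ((‖a₀‖ ^ 2 : ℝ) : ℂ) + (η' : ℂ)).re =
      (‖a S.vac‖ ^ 2 + ‖star a S.vac‖ ^ 2) * ‖a₀‖ ^ 2 + η' := by
    have : ((‖a S.vac‖ ^ 2 : ℝ) : ℂ) * ((‖a₀‖ ^ 2 : ℝ) : ℂ) +
      ((‖star a S.vac‖ ^ 2 : ℝ) : ℂ) * ((‖a₀‖ ^ 2 : ℝ) : ℂ) + (η' : ℂ) =
      (((‖a S.vac‖ ^ 2 + ‖star a S.vac‖ ^ 2) * ‖a₀‖ ^ 2 + η' : ℝ) : ℂ) := by
      push_cast; ring
    rw [this, Complex.ofReal_re]
  rw [e5] at hfin
  refine hfin.trans ?_
  have h6 : ‖a₀‖ ≤ supU S R := le_supU S R hv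
  have h7 : ‖a₀‖ ^ 2 ≤ (supU S R) ^ 2 := pow_le_pow_left₀ (norm_nonneg _) h6 2
  have h8 : 0 ≤ ‖a S.vac‖ ^ 2 + ‖star a S.vac‖ ^ 2 := by positivity
  have := mul_le_mul_of_nonneg_left h7 h8
  linarith

/-- A band limited vector is approximated by `a ξ` with control of `a⋆ ξ`. -/
theorem exists_approx (h : H) (b : ℝ) (K : Set ℝ) (hK : ∀ u ∈ K, u ≤ b)
    (hh : S.D.SupportedIn K h) (ε : ℝ) (hε : 0 < ε) :
    ∃ a ∈ S.M, ‖a S.vac - h‖ < ε ∧ ‖star a S.vac‖ ≤ Real.exp (b / 2) * ‖h‖ + ε := by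
  have hbnd : ∀ u : ℝ, ‖((Real.exp (min u b / 2) : ℝ) : ℂ)‖ ≤ Real.exp (b / 2) := by
    intro u
    rw [Complex.norm_real, Real.norm_eq_abs, abs_of_pos (Real.exp_pos _)]
    apply Real.exp_le_exp.2
    have := min_le_right u b
    linarith
  let ĝ : BCF := BoundedContinuousFunction.ofNormedAddCommGroup
    (fun u : ℝ => ((Real.exp (min u b / 2) : ℝ) : ℂ)) (by fun_prop) (Real.exp (b / 2)) hbnd
  have hĝ : ∀ u, ĝ u = ((Real.exp (min u b / 2) : ℝ) : ℂ) := fun u => rfl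
  have hĝn : ‖ĝ‖ ≤ Real.exp (b / 2) :=
    (BoundedContinuousFunction.norm_le (Real.exp_pos _).le).2 hbnd
  set y := S.D.apply ĝ h with hy
  have hmem : (h, S.J y) ∈
      closure (Set.range fun a : S.M => ((a : H →L[ℂ] H) S.vac, star (a : H →L[ℂ] H) S.vac)) := by
    rw [S.tomita]
    show S.D.HalfExp h (S.J (S.J y))
    rw [S.J_J]
    intro f g hfg
    rw [hy, LC.apply_apply, ← sub_eq_zero, ← sub_apply, ← map_sub]
    apply hh
    intro u hu
    simp only [BoundedContinuousFunction.coe_sub, BoundedContinuousFunction.coe_mul, Pi.sub_apply,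
      Pi.mul_apply]
    rw [hĝ, hfg u, min_eq_left (hK u hu), sub_self]
  obtain ⟨_, ⟨a, rfl⟩, hdist⟩ := Metric.mem_closure_iff.1 hmem ε hε
  rw [Prod.dist_eq, max_lt_iff] at hdist
  obtain ⟨h1, h2⟩ := hdist
  simp only at h1 h2
  refine ⟨a, a.2, ?_, ?_⟩
  · rw [dist_comm, dist_eq_norm] at h1
    exact h1
  · rw [dist_comm, dist_eq_norm] at h2
    have h3 : ‖star (a : H →L[ℂ] H) S.vac‖ ≤ ‖S.J y‖ + ε := by
      have := norm_sub_norm_le (star (a : H →L[ℂ] H) S.vac) (S.J y)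
      linarith
    rw [norm_J] at h3
    have h4 : ‖y‖ ≤ Real.exp (b / 2) * ‖h‖ :=
      (LC.norm_apply_apply_le S.D ĝ h).trans (mul_le_mul_of_nonneg_right hĝn (norm_nonneg _))
    linarith

lemma windowMean_add_const {f : ℝ → ℝ} (hf : Continuous f) (E : ℝ) (k : ℕ) (hk : 1 ≤ k) :
    windowMean (fun t => f t + E) k = windowMean f k + E := by
  have hk' : (0 : ℝ) < 2 * k := by
    have : (1 : ℝ) ≤ k := by exact_mod_cast hk
    linarith
  simp only [windowMean, setAverage_eq, smul_eq_mul, volume_real_window]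
  rw [integral_add hf.continuousOn.integrableOn_Icc (continuous_const (y := E)).continuousOn.integrableOn_Icc,
    setIntegral_const, volume_real_window, smul_eq_mul]
  field_simp

lemma tendsto_ultraMean (ω : Ultrafilter ℕ) {F : ℝ → ℝ} (hF : Continuous F) (B : ℝ)
    (hB : ∀ t, |F t| ≤ B) :
    Tendsto (windowMean F) (ω : Filter ℕ) (𝓝 (ultraMean ω F)) := by
  have hc : Continuous (fun t => ((F t : ℝ) : ℂ)) := Complex.continuous_ofReal.comp hF
  have hB0 : 0 ≤ B := (abs_nonneg _).trans (hB 0)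
  have hb : ∀ k, ‖cmean (fun t => ((F t : ℝ) : ℂ)) k‖ ≤ B := fun k =>
    norm_cmean_le _ _ hB0 (fun t => by rw [Complex.norm_real]; exact hB t) k
  obtain ⟨L, hL, -⟩ := ultra_lim_exists ω _ _ hb
  have h1 : Tendsto (windowMean F) (ω : Filter ℕ) (𝓝 L.re) := by
    have h2 : ∀ k, windowMean F k = (cmean (fun t => ((F t : ℝ) : ℂ)) k).re := by
      intro k
      have := windowMean_eq_re_cmean (g := fun t => ((F t : ℝ) : ℂ)) hc k
      simpa using this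
    have h3 : windowMean F = fun k => (cmean (fun t => ((F t : ℝ) : ℂ)) k).re := funext h2
    rw [h3]
    exact Complex.continuous_re.continuousAt.tendsto.comp hL
  exact tendsto_nhds_limUnder ⟨_, h1⟩

/-- The lower bound for the supremum over unitaries. -/
theorem band_lower_bound (herg : S.Ergodic) (ω : Ultrafilter ℕ) (hω : (ω : Filter ℕ) ≤ atTop)
    (T : H →L[ℂ] H) (χ : BCF) (s δ : ℝ) (hχ : ∀ u ∈ Set.Icc (s - δ) (s + δ), χ u = 1)
    (h : H) (hh : ‖h‖ = 1) (hband : S.D.SupportedIn (Set.Icc (s - δ) (s + δ)) h)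
    (c : ℝ) (hc : 0 < c) (hmean : c ≤ ultraMean ω (fun t : ℝ => ‖T (S.D.wave t h)‖ ^ 2)) :
    c / 2 ≤ (4 + (Real.exp ((s + δ) / 2) + 1) ^ 2) * (supU S (T * S.D.apply χ)) ^ 2 := by
  set R := T * S.D.apply χ with hR
  have hχh : S.D.apply χ h = h := by
    have h1 : S.D.apply (χ - 1) h = 0 := by
      apply hband
      intro u hu
      simp [hχ u hu]
    rw [map_sub, map_one] at h1
    simpa [sub_eq_zero] using h1
  have hRw : ∀ t, R (S.D.wave t h) = T (S.D.wave t h) := by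
    intro t
    have h1 : R (S.D.wave t h) = T (S.D.apply χ (S.D.wave t h)) := rfl
    rw [h1]
    congr 1
    simp only [LineCalculus.wave]
    rw [LC.apply_comm, hχh]
  set ρ : ℝ := ‖R‖ with hρ
  have hρ0 : 0 ≤ ρ := norm_nonneg _
  set ε' : ℝ := min 1 (c / (20 * ρ ^ 2 + 1)) with hε'
  have hε'0 : 0 < ε' := lt_min one_pos (by positivity)
  have hε'1 : ε' ≤ 1 := min_le_left _ _
  have hε'2 : 5 * ρ ^ 2 * ε' ≤ c / 4 := by
    have h1 : ε' ≤ c / (20 * ρ ^ 2 + 1) := min_le_right _ _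
    have h2 : 0 < 20 * ρ ^ 2 + 1 := by positivity
    have h3 : ε' * (20 * ρ ^ 2 + 1) ≤ c := by
      calc ε' * (20 * ρ ^ 2 + 1) ≤ c / (20 * ρ ^ 2 + 1) * (20 * ρ ^ 2 + 1) :=
            mul_le_mul_of_nonneg_right h1 h2.le
        _ = c := by field_simp
    nlinarith
  have hK : ∀ u ∈ Set.Icc (s - δ) (s + δ), u ≤ s + δ := fun u hu => hu.2
  obtain ⟨a, haM, ha1, ha2⟩ := exists_approx S h (s + δ) _ hK hband ε' hε'0
  rw [hh, mul_one] at ha2
  have haξ : ‖a S.vac‖ ≤ 2 := by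
    have h1 : ‖a S.vac‖ ≤ ‖a S.vac - h‖ + ‖h‖ := by
      have := norm_add_le (a S.vac - h) h
      rwa [sub_add_cancel] at this
    rw [hh] at h1
    linarith
  set E := Real.exp ((s + δ) / 2) with hE
  have hE0 : 0 < E := Real.exp_pos _
  have hsaξ : ‖star a S.vac‖ ≤ E + 1 := by linarith
  -- the functions
  set Fh : ℝ → ℝ := fun t => ‖T (S.D.wave t h)‖ ^ 2 with hFh
  set Fa : ℝ → ℝ := fun t => ‖R (S.flow t a S.vac)‖ ^ 2 with hFa
  have hFhc : Continuous Fh := (T.continuous.comp (LC.continuous_wave S.D h)).norm.pow 2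
  have hFac : Continuous Fa := (R.continuous.comp (continuous_flow_apply S a S.vac)).norm.pow 2
  have hFhb : ∀ t, |Fh t| ≤ (‖T‖ * ‖h‖) ^ 2 := by
    intro t
    rw [hFh, abs_of_nonneg (by positivity)]
    apply pow_le_pow_left₀ (norm_nonneg _)
    calc ‖T (S.D.wave t h)‖ ≤ ‖T‖ * ‖S.D.wave t h‖ := T.le_opNorm _
      _ = ‖T‖ * ‖h‖ := by rw [LC.norm_wave_apply]
  have hFab : ∀ t, |Fa t| ≤ (‖R‖ * ‖a S.vac‖) ^ 2 := by
    intro t
    rw [hFa, abs_of_nonneg (by positivity)]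
    apply pow_le_pow_left₀ (norm_nonneg _)
    rw [flow_vac]
    calc ‖R (S.D.wave t (a S.vac))‖ ≤ ‖R‖ * ‖S.D.wave t (a S.vac)‖ := R.le_opNorm _
      _ = ‖R‖ * ‖a S.vac‖ := by rw [LC.norm_wave_apply]
  have hLh := tendsto_ultraMean ω hFhc _ hFhb
  have hLa := tendsto_ultraMean ω hFac _ hFab
  have hbound := mean_bound S herg ω hω R haM (c / 4) (by positivity) _ hLa
  -- pointwise comparison
  have hpt : ∀ t, Fh t ≤ Fa t + 5 * ρ ^ 2 * ε' := by
    intro t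
    simp only [hFh, hFa]
    rw [← hRw t, flow_vac]
    set y := ‖R (S.D.wave t (a S.vac))‖ with hy
    set x := ‖R (S.D.wave t h)‖ with hx
    have hy1 : y ≤ ρ * 2 := by
      calc y ≤ ρ * ‖S.D.wave t (a S.vac)‖ := R.le_opNorm _
        _ = ρ * ‖a S.vac‖ := by rw [LC.norm_wave_apply]
        _ ≤ ρ * 2 := mul_le_mul_of_nonneg_left haξ hρ0
    have hxy : x ≤ y + ρ * ε' := by
      have h1 : R (S.D.wave t h) = R (S.D.wave t (a S.vac)) - R (S.D.wave t (a S.vac - h)) := by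
        simp
      have h2 : ‖R (S.D.wave t (a S.vac - h))‖ ≤ ρ * ε' := by
        calc ‖R (S.D.wave t (a S.vac - h))‖ ≤ ρ * ‖S.D.wave t (a S.vac - h)‖ := R.le_opNorm _
          _ = ρ * ‖a S.vac - h‖ := by rw [LC.norm_wave_apply]
          _ ≤ ρ * ε' := mul_le_mul_of_nonneg_left ha1.le hρ0
      rw [hx, h1]
      exact (norm_sub_le _ _).trans (by linarith)
    have hx0 : 0 ≤ x := norm_nonneg _
    have hy0 : 0 ≤ y := norm_nonneg _
    have h3 : x ^ 2 ≤ (y + ρ * ε') ^ 2 := pow_le_pow_left₀ hx0 hxy 2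
    have h4 : (y + ρ * ε') ^ 2 = y ^ 2 + 2 * y * (ρ * ε') + (ρ * ε') ^ 2 := by ring
    have h5 : 2 * y * (ρ * ε') ≤ 4 * ρ ^ 2 * ε' := by
      have : 2 * y * (ρ * ε') ≤ 2 * (ρ * 2) * (ρ * ε') :=
        mul_le_mul_of_nonneg_right (by linarith) (by positivity)
      linarith [this, show 2 * (ρ * 2) * (ρ * ε') = 4 * ρ ^ 2 * ε' by ring]
    have h6 : (ρ * ε') ^ 2 ≤ ρ ^ 2 * ε' := by
      have : ε' ^ 2 ≤ ε' := by nlinarith
      calc (ρ * ε') ^ 2 = ρ ^ 2 * ε' ^ 2 := by ring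
        _ ≤ ρ ^ 2 * ε' := mul_le_mul_of_nonneg_left this (by positivity)
    nlinarith
  have hlim : ultraMean ω Fh ≤ ultraMean ω Fa + 5 * ρ ^ 2 * ε' := by
    have hev : ∀ᶠ k : ℕ in (ω : Filter ℕ), windowMean Fh k ≤ windowMean Fa k + 5 * ρ ^ 2 * ε' := by
      filter_upwards [hω (eventually_ge_atTop 1)] with k hk
      rw [← windowMean_add_const hFac _ k hk]
      exact windowMean_mono hFhc (hFac.add continuous_const) hpt k
    exact le_of_tendsto_of_tendsto hLh (hLa.add tendsto_const_nhds) hev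
  have hnorm1 : ‖a S.vac‖ ^ 2 ≤ 4 := by
    have h0 : 0 ≤ ‖a S.vac‖ := norm_nonneg _
    nlinarith
  have hnorm2 : ‖star a S.vac‖ ^ 2 ≤ (E + 1) ^ 2 := pow_le_pow_left₀ (norm_nonneg _) hsaξ 2
  have hA2 : 0 ≤ (supU S R) ^ 2 := by positivity
  have hmono : (‖a S.vac‖ ^ 2 + ‖star a S.vac‖ ^ 2) * (supU S R) ^ 2 ≤
      (4 + (E + 1) ^ 2) * (supU S R) ^ 2 :=
    mul_le_mul_of_nonneg_right (add_le_add hnorm1 hnorm2) hA2
  have : c ≤ ultraMean ω Fh := hmean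
  linarith

end Crest.Agent.ModRec
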