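import Mathlib
import Crest.Prelude.Def_ModularData

set_option autoImplicit false

namespace Crest.Agent.ModRec

open Crest.OpAlg Filter MeasureTheory
open scoped Topology ComplexInnerProductSpace

variable {H : Type*} [NormedAddCommGroup H] [InnerProductSpace ℂ H] [CompleteSpace H]

/-- Abbreviation for bounded continuous functions on the line. -/
abbrev BCF : Type := BoundedContinuousFunction ℝ ℂ

namespace LC

variable (D : LineCalculus H)

lemma norm_apply_le (f : BCF) : ‖D.apply f‖ ≤ ‖f‖ :=
  NonUnitalStarAlgHom.norm_apply_le D.apply f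

lemma norm_apply_apply_le (f : BCF) (y : H) : ‖D.apply f y‖ ≤ ‖f‖ * ‖y‖ :=
  ((D.apply f).le_opNorm y).trans (mul_le_mul_of_nonneg_right (norm_apply_le D f) (norm_nonneg _))

lemma character_apply (t u : ℝ) :
    LineCalculus.character t u = Complex.exp (Complex.I * ((t * u : ℝ) : ℂ)) := rfl

lemma character_mul (s t : ℝ) :
    LineCalculus.character s * LineCalculus.character t = LineCalculus.character (s + t) := by
  ext u
  simp only [BoundedContinuousFunction.coe_mul, Pi.mul_apply, character_apply]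
  rw [← Complex.exp_add]
  congr 1
  push_cast
  ring

lemma character_zero : LineCalculus.character 0 = 1 := by
  ext u
  simp [character_apply]

lemma star_character (t : ℝ) : star (LineCalculus.character t) = LineCalculus.character (-t) := by
  ext u
  simp only [BoundedContinuousFunction.star_apply, character_apply]
  rw [Complex.star_def, ← Complex.exp_conj]
  congr 1
  simp [Complex.conj_ofReal]

lemma norm_character_le (t : ℝ) : ‖LineCalculus.character t‖ ≤ 1 := by
  rw [BoundedContinuousFunction.norm_le zero_le_one]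
  intro u
  rw [character_apply, mul_comm, Complex.norm_exp_ofReal_mul_I]

lemma wave_add (s t : ℝ) : D.wave s * D.wave t = D.wave (s + t) := by
  simp only [LineCalculus.wave]
  rw [← map_mul, character_mul]

lemma wave_zero : D.wave 0 = 1 := by
  simp only [LineCalculus.wave]
  rw [character_zero, map_one]

lemma star_wave (t : ℝ) : star (D.wave t) = D.wave (-t) := by
  simp only [LineCalculus.wave]
  rw [← map_star, star_character]

lemma norm_wave_le (t : ℝ) : ‖D.wave t‖ ≤ 1 :=
  (norm_apply_le D _).trans (norm_character_le t)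

lemma wave_neg_mul (t : ℝ) : D.wave (-t) * D.wave t = 1 := by
  rw [wave_add]; simp [wave_zero]

lemma wave_mul_neg (t : ℝ) : D.wave t * D.wave (-t) = 1 := by
  rw [wave_add]; simp [wave_zero]

lemma wave_neg_wave (t : ℝ) (y : H) : D.wave (-t) (D.wave t y) = y := by
  have := congrArg (fun T : H →L[ℂ] H => T y) (wave_neg_mul D t)
  simpa using this

lemma wave_wave_neg (t : ℝ) (y : H) : D.wave t (D.wave (-t) y) = y := by
  have := congrArg (fun T : H →L[ℂ] H => T y) (wave_mul_neg D t)
  simpa using this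

lemma wave_wave (s t : ℝ) (y : H) : D.wave s (D.wave t y) = D.wave (s + t) y := by
  have := congrArg (fun T : H →L[ℂ] H => T y) (wave_add D s t)
  simpa using this

lemma norm_wave_apply_le (t : ℝ) (y : H) : ‖D.wave t y‖ ≤ ‖y‖ := by
  calc ‖D.wave t y‖ ≤ ‖D.wave t‖ * ‖y‖ := (D.wave t).le_opNorm y
    _ ≤ 1 * ‖y‖ := mul_le_mul_of_nonneg_right (norm_wave_le D t) (norm_nonneg _)
    _ = ‖y‖ := one_mul _

lemma norm_wave_apply (t : ℝ) (y : H) : ‖D.wave t y‖ = ‖y‖ := by
  apply le_antisymm (norm_wave_apply_le D t y)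
  calc ‖y‖ = ‖D.wave (-t) (D.wave t y)‖ := by rw [wave_neg_wave]
    _ ≤ ‖D.wave t y‖ := norm_wave_apply_le D _ _

lemma inner_wave_left (t : ℝ) (p q : H) : ⟪D.wave t p, q⟫ = ⟪p, D.wave (-t) q⟫ := by
  have h : (D.wave (-t)) = ContinuousLinearMap.adjoint (D.wave t) := by
    rw [← star_wave]; rfl
  rw [h, ContinuousLinearMap.adjoint_inner_right]

lemma inner_wave_right (t : ℝ) (p q : H) : ⟪p, D.wave t q⟫ = ⟪D.wave (-t) p, q⟫ := by
  rw [inner_wave_left, neg_neg]

/-- `apply` is continuous. -/
lemma continuous_apply : Continuous (D.apply : BCF → (H →L[ℂ] H)) := by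
  have : Continuous (D.apply.toAlgHom.toLinearMap.mkContinuous 1
      (fun f => by simpa using norm_apply_le D f) : BCF →L[ℂ] (H →L[ℂ] H)) :=
    ContinuousLinearMap.continuous _
  exact this

/-- `apply` as a continuous linear map. -/
noncomputable def applyCLM : BCF →L[ℂ] (H →L[ℂ] H) :=
  D.apply.toAlgHom.toLinearMap.mkContinuous 1 (fun f => by simpa using norm_apply_le D f)

@[simp] lemma applyCLM_apply (f : BCF) : applyCLM D f = D.apply f := rfl

lemma apply_apply (f g : BCF) (y : H) : D.apply f (D.apply g y) = D.apply (f * g) y := by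
  rw [map_mul]; rfl

lemma apply_comm (f g : BCF) (y : H) : D.apply f (D.apply g y) = D.apply g (D.apply f y) := by
  rw [apply_apply, apply_apply, mul_comm]

lemma wave_apply (t : ℝ) (g : BCF) (y : H) :
    D.wave t (D.apply g y) = D.apply (LineCalculus.character t * g) y := by
  simp only [LineCalculus.wave]
  rw [apply_apply]

/-- Multiplying a compactly supported function by characters is norm continuous. -/
lemma continuous_character_mul (g : BCF) (hg : HasCompactSupport (g : ℝ → ℂ)) :
    Continuous (fun t : ℝ => LineCalculus.character t * g) := by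
  obtain ⟨r, hr⟩ := hg.isCompact.isBounded.subset_closedBall (0 : ℝ)
  have hr' : ∀ u : ℝ, g u ≠ 0 → |u| ≤ |r| := by
    intro u hu
    have : u ∈ Metric.closedBall (0 : ℝ) r := hr (subset_tsupport _ (by simpa using hu))
    simp only [Metric.mem_closedBall, dist_zero_right, Real.norm_eq_abs] at this
    exact this.trans (le_abs_self r)
  have key : ∀ s t : ℝ, dist (LineCalculus.character s * g) (LineCalculus.character t * g)
      ≤ (|r| * ‖g‖) * dist s t := by
    intro s t
    rw [BoundedContinuousFunction.dist_le (by positivity)]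
    intro u
    simp only [BoundedContinuousFunction.coe_mul, Pi.mul_apply, character_apply]
    rw [dist_eq_norm, ← sub_mul, norm_mul]
    by_cases hu : g u = 0
    · simp only [hu, norm_zero, mul_zero]
      positivity
    · have h1 : ‖Complex.exp (Complex.I * ((s * u : ℝ) : ℂ)) -
          Complex.exp (Complex.I * ((t * u : ℝ) : ℂ))‖ ≤ |u| * dist s t := by
        have : Complex.exp (Complex.I * ((s * u : ℝ) : ℂ)) -
            Complex.exp (Complex.I * ((t * u : ℝ) : ℂ)) =
            Complex.exp (((s * u : ℝ) : ℂ) * Complex.I) - Complex.exp (((t * u : ℝ) : ℂ) * Complex.I) := by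
          rw [mul_comm Complex.I, mul_comm Complex.I]
        rw [this]
        have h2 := Real.norm_exp_I_mul_ofReal_sub_one_le (x := (s - t) * u)
        have h3 : Complex.exp (((s * u : ℝ) : ℂ) * Complex.I) - Complex.exp (((t * u : ℝ) : ℂ) * Complex.I)
            = Complex.exp (((t * u : ℝ) : ℂ) * Complex.I) *
              (Complex.exp (Complex.I * (((s - t) * u : ℝ) : ℂ)) - 1) := by
          rw [mul_sub, ← Complex.exp_add, mul_one]
          congr 2
          push_cast
          ring
        rw [h3, norm_mul, Complex.norm_exp_ofReal_mul_I, one_mul]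
        refine h2.trans ?_
        rw [Real.norm_eq_abs, abs_mul, Real.dist_eq, mul_comm]
      have h4 : ‖g u‖ ≤ ‖g‖ := g.norm_coe_le_norm u
      calc ‖Complex.exp (Complex.I * ((s * u : ℝ) : ℂ)) -
            Complex.exp (Complex.I * ((t * u : ℝ) : ℂ))‖ * ‖g u‖
          ≤ (|u| * dist s t) * ‖g‖ := mul_le_mul h1 h4 (norm_nonneg _) (by positivity)
        _ ≤ (|r| * dist s t) * ‖g‖ := by
            have h5 := hr' u hu
            have h6 : 0 ≤ dist s t := dist_nonneg
            have h7 : 0 ≤ ‖g‖ := norm_nonneg _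
            exact mul_le_mul_of_nonneg_right (mul_le_mul_of_nonneg_right h5 h6) h7
        _ = (|r| * ‖g‖) * dist s t := by ring
  have : LipschitzWith ⟨|r| * ‖g‖, by positivity⟩ (fun t : ℝ => LineCalculus.character t * g) := by
    apply LipschitzWith.of_dist_le_mul
    intro s t
    exact key s t
  exact this.continuous

/-- The unitary group of a calculus is strongly continuous. -/
lemma continuous_wave (y : H) : Continuous (fun t : ℝ => D.wave t y) := by
  refine continuous_of_uniform_approx_of_continuous (fun u hu => ?_)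
  obtain ⟨ε, hε, hu'⟩ := Metric.mem_uniformity_dist.1 hu
  obtain ⟨g, hg, hgy⟩ := D.window y ε hε
  refine ⟨fun t => D.wave t (D.apply g y), ?_, fun t => hu' ?_⟩
  · have : (fun t => D.wave t (D.apply g y)) =
        fun t => D.apply (LineCalculus.character t * g) y := funext (fun t => wave_apply D t g y)
    rw [this]
    exact ((continuous_apply D).comp (continuous_character_mul g hg)).clm_apply continuous_const
  · rw [dist_eq_norm, ← map_sub, norm_wave_apply, norm_sub_rev]
    exact hgy

lemma integrable_smul_wave (f : ℝ → ℂ) (hf : Integrable f) (κ : ℝ) (y : H) :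
    Integrable (fun τ => f τ • D.wave (κ * τ) y) := by
  refine (hf.norm.mul_const ‖y‖).mono' ?_ ?_
  · exact hf.aestronglyMeasurable.smul
      ((continuous_wave D y).comp (continuous_const.mul continuous_id)).aestronglyMeasurable
  · filter_upwards with τ
    rw [norm_smul, norm_wave_apply]

lemma norm_integral_smul_wave_le (f : ℝ → ℂ) (hf : Integrable f) (κ : ℝ) (y : H) :
    ‖∫ τ, f τ • D.wave (κ * τ) y‖ ≤ (∫ τ, ‖f τ‖) * ‖y‖ := by
  calc ‖∫ τ, f τ • D.wave (κ * τ) y‖ ≤ ∫ τ, ‖f τ • D.wave (κ * τ) y‖ :=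
        norm_integral_le_integral_norm _
    _ = ∫ τ, ‖f τ‖ * ‖y‖ := by
        congr 1; ext τ; rw [norm_smul, norm_wave_apply]
    _ = (∫ τ, ‖f τ‖) * ‖y‖ := integral_mul_const _ _

/-- The identity `∫ f(τ) exp(iκτD) y dτ = χ(D) y`, on the range of a compactly supported cut-off. -/
lemma integral_smul_wave_of_compact (f : ℝ → ℂ) (hf : Integrable f) (κ : ℝ) (χ : BCF)
    (hχ : ∀ u, ∫ τ, f τ * LineCalculus.character (κ * τ) u = χ u)
    (g : BCF) (hg : HasCompactSupport (g : ℝ → ℂ)) (y : H) :
    ∫ τ, f τ • D.wave (κ * τ) (D.apply g y) = D.apply χ (D.apply g y) := by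
  set G : ℝ → BCF := fun τ => f τ • (LineCalculus.character (κ * τ) * g) with hG
  have hcont : Continuous (fun τ : ℝ => LineCalculus.character (κ * τ) * g) :=
    (continuous_character_mul g hg).comp (continuous_const.mul continuous_id)
  have hGi : Integrable G := by
    refine (hf.norm.mul_const ‖g‖).mono' (hf.aestronglyMeasurable.smul hcont.aestronglyMeasurable) ?_
    filter_upwards with τ
    rw [hG, norm_smul]
    refine mul_le_mul_of_nonneg_left ?_ (norm_nonneg _)
    calc ‖LineCalculus.character (κ * τ) * g‖ ≤ ‖LineCalculus.character (κ * τ)‖ * ‖g‖ :=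
          norm_mul_le _ _
      _ ≤ 1 * ‖g‖ := mul_le_mul_of_nonneg_right (norm_character_le _) (norm_nonneg _)
      _ = ‖g‖ := one_mul _
  have hGint : ∫ τ, G τ = χ * g := by
    ext u
    have h1 := (BoundedContinuousFunction.evalCLM ℂ u).integral_comp_comm hGi
    have h2 : (BoundedContinuousFunction.evalCLM ℂ u) (∫ τ, G τ) = (∫ τ, G τ) u := rfl
    rw [← h2, ← h1]
    have h3 : ∀ τ, (BoundedContinuousFunction.evalCLM ℂ u) (G τ) =
        (f τ * LineCalculus.character (κ * τ) u) * g u := by
      intro τ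
      simp only [hG, BoundedContinuousFunction.evalCLM_apply, BoundedContinuousFunction.coe_smul,
        BoundedContinuousFunction.coe_mul, Pi.mul_apply, smul_eq_mul, mul_assoc]
    simp_rw [h3]
    rw [integral_mul_const, hχ u]
    simp
  set L : BCF →L[ℂ] H := (ContinuousLinearMap.apply ℂ H y).comp (applyCLM D) with hL
  have h1 := L.integral_comp_comm hGi
  have h2 : ∀ τ, L (G τ) = f τ • D.wave (κ * τ) (D.apply g y) := by
    intro τ
    simp only [hL, hG, ContinuousLinearMap.coe_comp, Function.comp_apply, applyCLM_apply,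
      ContinuousLinearMap.apply_apply, map_smul]
    rw [wave_apply]
  simp_rw [h2] at h1
  rw [h1, hGint, hL]
  simp only [ContinuousLinearMap.coe_comp, Function.comp_apply, applyCLM_apply,
    ContinuousLinearMap.apply_apply]
  rw [apply_apply]

/-- The identity `∫ f(τ) exp(iκτD) y dτ = χ(D) y` for all vectors. -/
theorem integral_smul_wave (f : ℝ → ℂ) (hf : Integrable f) (κ : ℝ) (χ : BCF)
    (hχ : ∀ u, ∫ τ, f τ * LineCalculus.character (κ * τ) u = χ u) (y : H) :
    ∫ τ, f τ • D.wave (κ * τ) y = D.apply χ y := by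
  rw [← sub_eq_zero, ← norm_le_zero_iff]
  apply le_of_forall_pos_le_add
  intro ε hε
  set K : ℝ := (∫ τ, ‖f τ‖) + ‖χ‖ + 1 with hK
  have hK0 : 0 < K := by
    have h1 : 0 ≤ ∫ τ, ‖f τ‖ := integral_nonneg (fun _ => norm_nonneg _)
    have h2 : 0 ≤ ‖χ‖ := norm_nonneg _
    linarith
  obtain ⟨g, hg, hgy⟩ := D.window y (ε / K) (div_pos hε hK0)
  have hmain := integral_smul_wave_of_compact D f hf κ χ hχ g hg y
  set y₁ := D.apply g y with hy₁
  have e1 : (∫ τ, f τ • D.wave (κ * τ) y) - (∫ τ, f τ • D.wave (κ * τ) y₁) =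
      ∫ τ, f τ • D.wave (κ * τ) (y - y₁) := by
    rw [← integral_sub (integrable_smul_wave D f hf κ y) (integrable_smul_wave D f hf κ y₁)]
    congr 1; ext τ
    rw [map_sub, smul_sub]
  have e2 := norm_integral_smul_wave_le D f hf κ (y - y₁)
  rw [← e1] at e2
  have e3 : ‖D.apply χ y₁ - D.apply χ y‖ ≤ ‖χ‖ * ‖y₁ - y‖ := by
    rw [← map_sub]
    exact norm_apply_apply_le D χ _
  have hnorm : ‖y - y₁‖ = ‖y₁ - y‖ := norm_sub_rev _ _
  rw [hnorm] at e2
  have e4 : (∫ τ, f τ • D.wave (κ * τ) y) - D.apply χ y =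
      ((∫ τ, f τ • D.wave (κ * τ) y) - (∫ τ, f τ • D.wave (κ * τ) y₁))
        + (D.apply χ y₁ - D.apply χ y) := by
    rw [hmain]; abel
  rw [e4]
  have hlt : ‖y₁ - y‖ ≤ ε / K := hgy.le
  have h0 : 0 ≤ ∫ τ, ‖f τ‖ := integral_nonneg (fun _ => norm_nonneg _)
  have h0' : 0 ≤ ‖χ‖ := norm_nonneg _
  calc ‖((∫ τ, f τ • D.wave (κ * τ) y) - (∫ τ, f τ • D.wave (κ * τ) y₁))
        + (D.apply χ y₁ - D.apply χ y)‖
      ≤ (∫ τ, ‖f τ‖) * ‖y₁ - y‖ + ‖χ‖ * ‖y₁ - y‖ := (norm_add_le _ _).trans (add_le_add e2 e3)
    _ = ((∫ τ, ‖f τ‖) + ‖χ‖) * ‖y₁ - y‖ := by ring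
    _ ≤ K * (ε / K) := by
        apply mul_le_mul _ hlt (norm_nonneg _) hK0.le
        rw [hK]; linarith
    _ = ε := by field_simp
    _ ≤ 0 + ε := by linarith

end LC

end Crest.Agent.ModRec
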