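import Crest.Agent.Lib.ModRec.Calculus

set_option autoImplicit false

namespace Crest.Agent.ModRec

open Crest.OpAlg Filter MeasureTheory
open scoped Topology FourierTransform SchwartzMap ContDiff

/-- An integrable kernel whose Fourier transform is a plateau function. -/
theorem exists_kernel : ∃ (F₀ : ℝ → ℂ) (χ₀ : ℝ → ℂ), Integrable F₀ ∧ Continuous χ₀ ∧
    (∀ u, ‖χ₀ u‖ ≤ 1) ∧ (∀ u, |u| ≤ 1 → χ₀ u = 1) ∧ (∀ u, 4 ≤ |u| → χ₀ u = 0) ∧
    ∀ u : ℝ, ∫ τ : ℝ, F₀ τ * Complex.exp (((-2 * Real.pi * τ * u : ℝ) : ℂ) * Complex.I) = χ₀ u := by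
  let b : ContDiffBump (0 : ℝ) := ⟨1, 4, by norm_num, by norm_num⟩
  set χ₀ : ℝ → ℂ := fun u => ((b u : ℝ) : ℂ) with hχ₀
  have hsmooth : ContDiff ℝ ∞ χ₀ := Complex.ofRealCLM.contDiff.comp b.contDiff
  have hcs : HasCompactSupport χ₀ := b.hasCompactSupport.comp_left (g := Complex.ofReal) (by simp)
  let ψ : 𝓢(ℝ, ℂ) := hcs.toSchwartzMap hsmooth
  have hψ : ∀ u, ψ u = χ₀ u := fun u => rfl
  let F : 𝓢(ℝ, ℂ) := 𝓕⁻ ψ
  have hF : 𝓕 F = ψ := FourierTransform.fourier_fourierInv_eq ψ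
  refine ⟨F, χ₀, F.integrable, hsmooth.continuous, ?_, ?_, ?_, ?_⟩
  · intro u
    simp only [hχ₀, Complex.norm_real, Real.norm_eq_abs]
    rw [abs_of_nonneg b.nonneg]
    exact b.le_one
  · intro u hu
    simp only [hχ₀]
    have : b u = 1 := b.one_of_mem_closedBall (by simpa [Real.dist_eq] using hu)
    simp [this]
  · intro u hu
    simp only [hχ₀]
    have : b u = 0 := b.zero_of_le_dist (by simpa [Real.dist_eq] using hu)
    simp [this]
  · intro u
    have h1 : (𝓕 F) u = ψ u := by rw [hF]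
    rw [SchwartzMap.fourier_coe, Real.fourier_real_eq_integral_exp_smul] at h1
    rw [← hψ, ← h1]
    congr 1
    ext τ
    rw [smul_eq_mul, mul_comm]

end Crest.Agent.ModRec
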