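import Crest.Agent.Lib.ModRec.Vacuum

set_option autoImplicit false

namespace Crest.Agent.ModRec

open Crest.OpAlg Filter MeasureTheory
open scoped Topology ComplexInnerProductSpace

/-- Complex version of the window mean. -/
noncomputable def cmean (g : ℝ → ℂ) (k : ℕ) : ℂ := ⨍ t in Set.Icc (-(k : ℝ)) k, g t

lemma cmean_eq (g : ℝ → ℂ) (k : ℕ) :
    cmean g k = ((volume.real (Set.Icc (-(k : ℝ)) k))⁻¹ : ℝ) • ∫ t in Set.Icc (-(k : ℝ)) k, g t :=
  setAverage_eq _ _ _

lemma volume_real_window (k : ℕ) : volume.real (Set.Icc (-(k : ℝ)) k) = 2 * k := by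
  rw [Real.volume_real_Icc]
  have : (0 : ℝ) ≤ k := Nat.cast_nonneg k
  rw [max_eq_left (by linarith)]
  ring

lemma norm_cmean_le (g : ℝ → ℂ) (B : ℝ) (hB : 0 ≤ B) (hg : ∀ t, ‖g t‖ ≤ B) (k : ℕ) :
    ‖cmean g k‖ ≤ B := by
  rw [cmean_eq, volume_real_window, norm_smul]
  have h1 : ‖∫ t in Set.Icc (-(k : ℝ)) k, g t‖ ≤ B * (2 * k) := by
    have := norm_setIntegral_le_of_norm_le_const (μ := volume) (s := Set.Icc (-(k : ℝ)) k)
      (f := g) (C := B) (by simp) (fun x _ => hg x)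
    rwa [volume_real_window] at this
  rcases Nat.eq_zero_or_pos k with hk | hk
  · subst hk
    simpa using hB
  · have hk' : (0 : ℝ) < 2 * k := by positivity
    rw [Real.norm_eq_abs, abs_of_pos (inv_pos.2 hk')]
    calc (2 * (k : ℝ))⁻¹ * ‖∫ t in Set.Icc (-(k : ℝ)) k, g t‖
        ≤ (2 * (k : ℝ))⁻¹ * (B * (2 * k)) := mul_le_mul_of_nonneg_left h1 (inv_pos.2 hk').le
      _ = B := by field_simp

lemma integrableOn_window {g : ℝ → ℂ} (hg : Continuous g) (k : ℕ) :
    IntegrableOn g (Set.Icc (-(k : ℝ)) k) := hg.continuousOn.integrableOn_Icc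

lemma cmean_add {g₁ g₂ : ℝ → ℂ} (h₁ : Continuous g₁) (h₂ : Continuous g₂) (k : ℕ) :
    cmean (fun t => g₁ t + g₂ t) k = cmean g₁ k + cmean g₂ k := by
  simp only [cmean_eq]
  rw [integral_add (integrableOn_window h₁ k) (integrableOn_window h₂ k), smul_add]

lemma cmean_const_mul (c : ℂ) (g : ℝ → ℂ) (k : ℕ) :
    cmean (fun t => c * g t) k = c * cmean g k := by
  simp only [cmean_eq]
  rw [integral_const_mul, Complex.real_smul, Complex.real_smul]
  ring

lemma cmean_const (c : ℂ) (k : ℕ) (hk : 1 ≤ k) : cmean (fun _ => c) k = c := by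
  rw [cmean_eq, setIntegral_const, smul_smul]
  have hk' : (0 : ℝ) < 2 * k := by
    have : (1 : ℝ) ≤ k := by exact_mod_cast hk
    linarith
  rw [volume_real_window, inv_mul_cancel₀ hk'.ne', one_smul]

lemma cmean_congr {g₁ g₂ : ℝ → ℂ} (h : ∀ t, g₁ t = g₂ t) (k : ℕ) : cmean g₁ k = cmean g₂ k := by
  have : g₁ = g₂ := funext h
  rw [this]

/-- Shifting a bounded continuous function changes the window mean by little. -/
lemma norm_cmean_shift_sub_le {g : ℝ → ℂ} (hg : Continuous g) (B : ℝ) (hB : ∀ t, ‖g t‖ ≤ B)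
    (s : ℝ) (k : ℕ) (hk : 1 ≤ k) :
    ‖cmean (fun t => g (t + s)) k - cmean g k‖ ≤ B * |s| / k := by
  have hk' : (0 : ℝ) < 2 * k := by
    have : (1 : ℝ) ≤ k := by exact_mod_cast hk
    linarith
  have hk1 : -(k : ℝ) ≤ k := by linarith
  simp only [cmean_eq, volume_real_window]
  rw [← smul_sub]
  have e0 : ∀ f : ℝ → ℂ, ∫ t in Set.Icc (-(k : ℝ)) k, f t = ∫ t in (-(k : ℝ))..k, f t := by
    intro f
    rw [intervalIntegral.integral_of_le hk1, integral_Icc_eq_integral_Ioc]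
  rw [e0, e0, intervalIntegral.integral_comp_add_right (fun x => g x) s]
  have hi : ∀ a b : ℝ, IntervalIntegrable g volume a b := fun a b => hg.intervalIntegrable a b
  rw [intervalIntegral.integral_interval_sub_interval_comm (hi _ _) (hi _ _) (hi _ _)]
  have h1 : ‖∫ t in (-(k : ℝ) + s)..(-(k : ℝ)), g t‖ ≤ B * |(-(k : ℝ)) - (-(k : ℝ) + s)| :=
    intervalIntegral.norm_integral_le_of_norm_le_const (fun x _ => hB x)
  have h2 : ‖∫ t in ((k : ℝ) + s)..k, g t‖ ≤ B * |(k : ℝ) - (k + s)| :=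
    intervalIntegral.norm_integral_le_of_norm_le_const (fun x _ => hB x)
  have e1 : |(-(k : ℝ)) - (-(k : ℝ) + s)| = |s| := by
    rw [show (-(k : ℝ)) - (-(k : ℝ) + s) = -s by ring, abs_neg]
  have e2 : |(k : ℝ) - (k + s)| = |s| := by
    rw [show (k : ℝ) - (k + s) = -s by ring, abs_neg]
  rw [e1] at h1
  rw [e2] at h2
  rw [norm_smul, Real.norm_eq_abs, abs_of_pos (inv_pos.2 hk')]
  calc (2 * (k : ℝ))⁻¹ * ‖(∫ t in (-(k : ℝ) + s)..(-(k : ℝ)), g t) - ∫ t in ((k : ℝ) + s)..k, g t‖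
      ≤ (2 * (k : ℝ))⁻¹ * (B * |s| + B * |s|) :=
        mul_le_mul_of_nonneg_left ((norm_sub_le _ _).trans (add_le_add h1 h2)) (inv_pos.2 hk').le
    _ = B * |s| / k := by field_simp; ring

lemma windowMean_eq_re_cmean {g : ℝ → ℂ} (hg : Continuous g) (k : ℕ) :
    windowMean (fun t => (g t).re) k = (cmean g k).re := by
  simp only [windowMean, cmean_eq]
  rw [setAverage_eq, volume_real_window, smul_eq_mul, Complex.real_smul, Complex.re_ofReal_mul]
  congr 1
  have := integral_re (f := g) (μ := volume.restrict (Set.Icc (-(k : ℝ)) k)) (integrableOn_window hg k)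
  simpa using this

lemma ultra_lim_exists (ω : Ultrafilter ℕ) (x : ℕ → ℂ) (B : ℝ) (hx : ∀ k, ‖x k‖ ≤ B) :
    ∃ L, Tendsto x (ω : Filter ℕ) (𝓝 L) ∧ ‖L‖ ≤ B := by
  have h1 : ((ω.map x : Ultrafilter ℂ) : Filter ℂ) ≤ 𝓟 (Metric.closedBall 0 B) := by
    rw [Ultrafilter.coe_map, le_principal_iff, mem_map]
    apply Filter.mem_of_superset Filter.univ_mem
    intro k _
    simpa using hx k
  obtain ⟨L, hL, hL'⟩ := (isCompact_closedBall (0 : ℂ) B).ultrafilter_le_nhds _ h1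
  refine ⟨L, ?_, by simpa using hL⟩
  rw [Ultrafilter.coe_map] at hL'
  exact hL'

variable {H : Type*} [NormedAddCommGroup H] [InnerProductSpace ℂ H] [CompleteSpace H]

variable (S : ModularDatum H)

lemma flow_apply (t : ℝ) (a : H →L[ℂ] H) (y : H) :
    S.flow t a y = S.D.wave t (a (S.D.wave (-t) y)) := rfl

lemma flow_mem_M {a : H →L[ℂ] H} (t : ℝ) (ha : a ∈ S.M) : S.flow t a ∈ S.M :=
  S.flow_mem t a ha

lemma norm_flow_apply_le (t : ℝ) (a : H →L[ℂ] H) (y : H) : ‖S.flow t a y‖ ≤ ‖a‖ * ‖y‖ := by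
  rw [flow_apply, LC.norm_wave_apply]
  calc ‖a (S.D.wave (-t) y)‖ ≤ ‖a‖ * ‖S.D.wave (-t) y‖ := a.le_opNorm _
    _ = ‖a‖ * ‖y‖ := by rw [LC.norm_wave_apply]

lemma norm_flow_le (t : ℝ) (a : H →L[ℂ] H) : ‖S.flow t a‖ ≤ ‖a‖ :=
  ContinuousLinearMap.opNorm_le_bound _ (norm_nonneg _) (norm_flow_apply_le S t a)

lemma continuous_wave_comp {z : ℝ → H} (hz : Continuous z) :
    Continuous (fun t => S.D.wave t (z t)) := by
  rw [continuous_iff_continuousAt]
  intro t₀
  rw [ContinuousAt, tendsto_iff_norm_sub_tendsto_zero]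
  have h1 : Tendsto (fun t => ‖z t - z t₀‖ + ‖S.D.wave t (z t₀) - S.D.wave t₀ (z t₀)‖) (𝓝 t₀) (𝓝 0) := by
    have h2 : Tendsto (fun t => ‖z t - z t₀‖) (𝓝 t₀) (𝓝 0) := by
      rw [← tendsto_iff_norm_sub_tendsto_zero]
      exact hz.tendsto t₀
    have h3 : Tendsto (fun t => ‖S.D.wave t (z t₀) - S.D.wave t₀ (z t₀)‖) (𝓝 t₀) (𝓝 0) := by
      rw [← tendsto_iff_norm_sub_tendsto_zero]
      exact (LC.continuous_wave S.D (z t₀)).tendsto t₀
    simpa using h2.add h3
  refine squeeze_zero (fun _ => norm_nonneg _) (fun t => ?_) h1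
  have e : S.D.wave t (z t) - S.D.wave t₀ (z t₀) =
      S.D.wave t (z t - z t₀) + (S.D.wave t (z t₀) - S.D.wave t₀ (z t₀)) := by
    rw [map_sub]; abel
  rw [e]
  refine (norm_add_le _ _).trans ?_
  rw [LC.norm_wave_apply]

lemma continuous_flow_apply (a : H →L[ℂ] H) (y : H) :
    Continuous (fun t => S.flow t a y) := by
  have h1 : Continuous (fun t : ℝ => S.D.wave (-t) y) :=
    (LC.continuous_wave S.D y).comp continuous_neg
  exact continuous_wave_comp S (a.continuous.comp h1)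

lemma flow_vac (t : ℝ) (a : H →L[ℂ] H) : S.flow t a S.vac = S.D.wave t (a S.vac) := by
  rw [flow_apply, wave_vac]

lemma flow_mul (t : ℝ) (a b : H →L[ℂ] H) : S.flow t (a * b) = S.flow t a * S.flow t b := by
  ext y
  simp [flow_apply, LC.wave_neg_wave]

lemma flow_star (t : ℝ) (a : H →L[ℂ] H) : S.flow t (star a) = star (S.flow t a) := by
  simp only [ModularDatum.flow, star_mul, LC.star_wave, neg_neg, mul_assoc]

lemma flow_flow (s t : ℝ) (a : H →L[ℂ] H) : S.flow s (S.flow t a) = S.flow (s + t) a := by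
  ext y
  simp only [flow_apply, LC.wave_wave]
  rw [show -t + -s = -(s + t) by ring]

/-- The window mean of matrix coefficients of the flow. -/
noncomputable def flowMean (z : H →L[ℂ] H) (p q : H) (k : ℕ) : ℂ :=
  cmean (fun t => ⟪p, S.flow t z q⟫) k

lemma continuous_coeff (z : H →L[ℂ] H) (p q : H) : Continuous (fun t => ⟪p, S.flow t z q⟫) :=
  continuous_const.inner (continuous_flow_apply S z q)

lemma norm_coeff_le (z : H →L[ℂ] H) (p q : H) (t : ℝ) : ‖⟪p, S.flow t z q⟫‖ ≤ ‖z‖ * ‖p‖ * ‖q‖ := by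
  calc ‖⟪p, S.flow t z q⟫‖ ≤ ‖p‖ * ‖S.flow t z q‖ := norm_inner_le_norm _ _
    _ ≤ ‖p‖ * (‖z‖ * ‖q‖) := mul_le_mul_of_nonneg_left (norm_flow_apply_le S t z q) (norm_nonneg _)
    _ = ‖z‖ * ‖p‖ * ‖q‖ := by ring

lemma norm_flowMean_le (z : H →L[ℂ] H) (p q : H) (k : ℕ) :
    ‖flowMean S z p q k‖ ≤ ‖z‖ * ‖p‖ * ‖q‖ :=
  norm_cmean_le _ _ (by positivity) (norm_coeff_le S z p q) k

section Ergodic

variable (ω : Ultrafilter ℕ)

lemma flowMean_lim_exists (z : H →L[ℂ] H) (p q : H) :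
    ∃ L, Tendsto (flowMean S z p q) (ω : Filter ℕ) (𝓝 L) ∧ ‖L‖ ≤ ‖z‖ * ‖p‖ * ‖q‖ :=
  ultra_lim_exists ω _ _ (norm_flowMean_le S z p q)

/-- The limit of the window means of matrix coefficients. -/
noncomputable def flowLim (z : H →L[ℂ] H) (p q : H) : ℂ :=
  limUnder (ω : Filter ℕ) (flowMean S z p q)

lemma flowLim_tendsto (z : H →L[ℂ] H) (p q : H) :
    Tendsto (flowMean S z p q) (ω : Filter ℕ) (𝓝 (flowLim S ω z p q)) := by
  obtain ⟨L, hL, -⟩ := flowMean_lim_exists S ω z p q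
  exact tendsto_nhds_limUnder ⟨L, hL⟩

lemma norm_flowLim_le (z : H →L[ℂ] H) (p q : H) : ‖flowLim S ω z p q‖ ≤ ‖z‖ * ‖p‖ * ‖q‖ := by
  obtain ⟨L, hL, hL'⟩ := flowMean_lim_exists S ω z p q
  rwa [tendsto_nhds_unique (flowLim_tendsto S ω z p q) hL]

lemma flowLim_add_left (z : H →L[ℂ] H) (p₁ p₂ q : H) :
    flowLim S ω z (p₁ + p₂) q = flowLim S ω z p₁ q + flowLim S ω z p₂ q := by
  refine tendsto_nhds_unique (flowLim_tendsto S ω z _ q) ?_
  refine ((flowLim_tendsto S ω z p₁ q).add (flowLim_tendsto S ω z p₂ q)).congr (fun k => ?_)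
  simp only [flowMean, inner_add_left]
  rw [cmean_add (continuous_coeff S z p₁ q) (continuous_coeff S z p₂ q)]

lemma flowLim_smul_left (z : H →L[ℂ] H) (c : ℂ) (p q : H) :
    flowLim S ω z (c • p) q = (starRingEnd ℂ) c * flowLim S ω z p q := by
  refine tendsto_nhds_unique (flowLim_tendsto S ω z _ q) ?_
  refine ((flowLim_tendsto S ω z p q).const_mul ((starRingEnd ℂ) c)).congr (fun k => ?_)
  simp only [flowMean, inner_smul_left]
  rw [cmean_const_mul]

lemma flowLim_add_right (z : H →L[ℂ] H) (p q₁ q₂ : H) :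
    flowLim S ω z p (q₁ + q₂) = flowLim S ω z p q₁ + flowLim S ω z p q₂ := by
  refine tendsto_nhds_unique (flowLim_tendsto S ω z p _) ?_
  refine ((flowLim_tendsto S ω z p q₁).add (flowLim_tendsto S ω z p q₂)).congr (fun k => ?_)
  simp only [flowMean, map_add, inner_add_right]
  rw [cmean_add (continuous_coeff S z p q₁) (continuous_coeff S z p q₂)]

lemma flowLim_smul_right (z : H →L[ℂ] H) (c : ℂ) (p q : H) :
    flowLim S ω z p (c • q) = c * flowLim S ω z p q := by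
  refine tendsto_nhds_unique (flowLim_tendsto S ω z p _) ?_
  refine ((flowLim_tendsto S ω z p q).const_mul c).congr (fun k => ?_)
  simp only [flowMean, map_smul, inner_smul_right]
  rw [cmean_const_mul]

/-- The limiting sesquilinear form as a bounded sesquilinear map. -/
noncomputable def flowForm (z : H →L[ℂ] H) : H →L⋆[ℂ] H →L[ℂ] ℂ :=
  LinearMap.mkContinuous₂
    (LinearMap.mk₂'ₛₗ (starRingEnd ℂ) (RingHom.id ℂ) (flowLim S ω z)
      (flowLim_add_left S ω z) (fun c p q => by simpa using flowLim_smul_left S ω z c p q)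
      (flowLim_add_right S ω z) (fun c p q => by simpa using flowLim_smul_right S ω z c p q))
    ‖z‖ (norm_flowLim_le S ω z)

@[simp] lemma flowForm_apply (z : H →L[ℂ] H) (p q : H) :
    flowForm S ω z p q = flowLim S ω z p q := rfl

/-- The mean of `σ_t(z)` along the ultrafilter, as an operator. -/
noncomputable def flowBar (z : H →L[ℂ] H) : H →L[ℂ] H :=
  ContinuousLinearMap.adjoint (InnerProductSpace.continuousLinearMapOfBilin (flowForm S ω z))

lemma inner_flowBar (z : H →L[ℂ] H) (p q : H) : ⟪p, flowBar S ω z q⟫ = flowLim S ω z p q := by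
  rw [flowBar, ContinuousLinearMap.adjoint_inner_right,
    InnerProductSpace.continuousLinearMapOfBilin_apply, flowForm_apply]

lemma flowBar_mem {z : H →L[ℂ] H} (hz : z ∈ S.M) : flowBar S ω z ∈ S.M := by
  refine mem_M_of_commute S _ (fun g hg => ?_)
  ext q
  refine ext_inner_left ℂ (fun p => ?_)
  simp only [mul_apply_eq_comp]
  have h1 : ⟪p, g (flowBar S ω z q)⟫ = ⟪ContinuousLinearMap.adjoint g p, flowBar S ω z q⟫ := by
    rw [ContinuousLinearMap.adjoint_inner_left]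
  rw [h1, inner_flowBar, inner_flowBar]
  refine tendsto_nhds_unique (flowLim_tendsto S ω z _ q) ?_
  refine (flowLim_tendsto S ω z p (g q)).congr (fun k => ?_)
  simp only [flowMean]
  refine cmean_congr (fun t => ?_) k
  rw [ContinuousLinearMap.adjoint_inner_left]
  have h2 := hg (S.flow t z) (flow_mem_M S t hz)
  have h3 : S.flow t z (g q) = g (S.flow t z q) := by
    have := congrArg (fun T : H →L[ℂ] H => T q) h2
    simpa using this
  rw [h3]

lemma flowLim_shift (hω : (ω : Filter ℕ) ≤ atTop) (z : H →L[ℂ] H) (s : ℝ) (p q : H) :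
    flowLim S ω z (S.D.wave (-s) p) (S.D.wave (-s) q) = flowLim S ω z p q := by
  have h1 := flowLim_tendsto S ω z (S.D.wave (-s) p) (S.D.wave (-s) q)
  have h2 := flowLim_tendsto S ω z p q
  have hcoeff : ∀ t, ⟪S.D.wave (-s) p, S.flow t z (S.D.wave (-s) q)⟫ = ⟪p, S.flow (t + s) z q⟫ := by
    intro t
    rw [← LC.inner_wave_right, flow_apply, flow_apply, LC.wave_wave, LC.wave_wave]
    rw [show -t + -s = -(t + s) by ring, add_comm s t]
  have hdiff : Tendsto (fun k : ℕ => flowMean S z (S.D.wave (-s) p) (S.D.wave (-s) q) k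
      - flowMean S z p q k) (ω : Filter ℕ) (𝓝 0) := by
    apply Tendsto.mono_left _ hω
    rw [tendsto_zero_iff_norm_tendsto_zero]
    have hb : Tendsto (fun k : ℕ => (‖z‖ * ‖p‖ * ‖q‖) * |s| / (k : ℝ)) atTop (𝓝 0) :=
      tendsto_const_div_atTop_nhds_zero_nat _
    refine squeeze_zero' (Eventually.of_forall (fun _ => norm_nonneg _)) ?_ hb
    filter_upwards [eventually_ge_atTop 1] with k hk
    have h3 : flowMean S z (S.D.wave (-s) p) (S.D.wave (-s) q) k =
        cmean (fun t => (fun t => ⟪p, S.flow t z q⟫) (t + s)) k := by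
      simp only [flowMean]
      exact cmean_congr hcoeff k
    rw [h3, flowMean]
    exact norm_cmean_shift_sub_le (continuous_coeff S z p q) _ (norm_coeff_le S z p q) s k hk
  have h4 := h1.sub h2
  have h5 := tendsto_nhds_unique h4 hdiff
  exact sub_eq_zero.1 h5

lemma flow_flowBar (hω : (ω : Filter ℕ) ≤ atTop) (z : H →L[ℂ] H) (s : ℝ) :
    S.flow s (flowBar S ω z) = flowBar S ω z := by
  ext q
  refine ext_inner_left ℂ (fun p => ?_)
  rw [flow_apply, LC.inner_wave_right, inner_flowBar, inner_flowBar, flowLim_shift S ω hω]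

lemma flowLim_vac (hω : (ω : Filter ℕ) ≤ atTop) (z : H →L[ℂ] H) :
    flowLim S ω z S.vac S.vac = ⟪S.vac, z S.vac⟫ := by
  refine tendsto_nhds_unique (flowLim_tendsto S ω z _ _) ?_
  have h1 : Tendsto (fun _ : ℕ => ⟪S.vac, z S.vac⟫) (ω : Filter ℕ) (𝓝 ⟪S.vac, z S.vac⟫) :=
    tendsto_const_nhds
  refine h1.congr' ?_
  have : ∀ᶠ k : ℕ in (ω : Filter ℕ), 1 ≤ k := hω (eventually_ge_atTop 1)
  filter_upwards [this] with k hk
  simp only [flowMean]
  rw [← cmean_const ⟪S.vac, z S.vac⟫ k hk]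
  refine cmean_congr (fun t => ?_) k
  rw [flow_vac, LC.inner_wave_right, wave_vac]

/-- Mean ergodic theorem for an ergodic state: the window means of matrix coefficients of `σ_t(z)`
converge along `ω` to `φ(z) ⟪p, q⟫`. -/
theorem flowMean_tendsto (herg : S.Ergodic) (hω : (ω : Filter ℕ) ≤ atTop)
    {z : H →L[ℂ] H} (hz : z ∈ S.M) (p q : H) :
    Tendsto (flowMean S z p q) (ω : Filter ℕ) (𝓝 (⟪S.vac, z S.vac⟫ * ⟪p, q⟫)) := by
  obtain ⟨c, hc⟩ := herg (flowBar S ω z) (flowBar_mem S ω hz) (fun s => flow_flowBar S ω hω z s)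
  have h1 : c = ⟪S.vac, z S.vac⟫ := by
    rw [← flowLim_vac S ω hω z, ← inner_flowBar, hc]
    simp [inner_self_eq_norm_sq_to_K, S.norm_vac]
  have h2 : flowLim S ω z p q = ⟪S.vac, z S.vac⟫ * ⟪p, q⟫ := by
    rw [← inner_flowBar, hc, ← h1]
    simp
  rw [← h2]
  exact flowLim_tendsto S ω z p q

end Ergodic

end Crest.Agent.ModRec
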