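import Crest.Agent.Lib.ModRec.Variation

set_option autoImplicit false

namespace Crest.Agent.ModRec

open Crest.OpAlg Filter MeasureTheory
open scoped Topology ComplexInnerProductSpace Nat

variable {H : Type*} [NormedAddCommGroup H] [InnerProductSpace ℂ H] [CompleteSpace H]
variable (S : ModularDatum H)

/-- The little Grothendieck type inequality at a nearly maximal unitary. -/
lemma variation_general (R : H →L[ℂ] H) (L η' : ℝ) (hη' : 0 < η') :
    ∃ v ∈ UM S, ∀ y ∈ S.M, ‖y‖ ≤ L →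
      ‖R (v (y S.vac))‖ ^ 2 ≤
        (⟪R (v S.vac), R (v ((star y * y + y * star y) S.vac))⟫).re + η' := by
  obtain ⟨v, hv, hvar⟩ := variation_selfAdjoint S R L (η' / 4) (by positivity)
  refine ⟨v, hv, fun y hy hyL => ?_⟩
  have hsy : star y ∈ S.M := star_mem hy
  have hny : ‖star y‖ = ‖y‖ := norm_star y
  set x₁ : H →L[ℂ] H := (1 / 2 : ℂ) • (y + star y) with hx₁
  set x₂ : H →L[ℂ] H := (-Complex.I / 2) • (y - star y) with hx₂
  have hx₁M : x₁ ∈ S.M := (S.M.toStarSubalgebra).smul_mem (add_mem hy hsy) _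
  have hx₂M : x₂ ∈ S.M := (S.M.toStarSubalgebra).smul_mem (sub_mem hy hsy) _
  have hx₁s : IsSelfAdjoint x₁ := by
    rw [isSelfAdjoint_iff, hx₁, star_smul, star_add, star_star, add_comm]
    simp
  have hx₂s : IsSelfAdjoint x₂ := by
    rw [isSelfAdjoint_iff, hx₂, star_smul, star_sub, star_star]
    have : star (-Complex.I / 2) = (Complex.I / 2 : ℂ) := by
      simp
    rw [this, ← neg_sub (y) (star y), smul_neg, ← neg_smul]
    congr 1
    ring
  have hx₁n : ‖x₁‖ ≤ L := by
    have h1 : ‖x₁‖ ≤ (1 / 2) * (‖y‖ + ‖star y‖) := by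
      rw [hx₁, norm_smul]
      have : ‖(1 / 2 : ℂ)‖ = 1 / 2 := by simp
      rw [this]
      exact mul_le_mul_of_nonneg_left (norm_add_le _ _) (by norm_num)
    rw [hny] at h1
    linarith
  have hx₂n : ‖x₂‖ ≤ L := by
    have h1 : ‖x₂‖ ≤ (1 / 2) * (‖y‖ + ‖star y‖) := by
      rw [hx₂, norm_smul]
      have : ‖(-Complex.I / 2 : ℂ)‖ = 1 / 2 := by simp
      rw [this]
      exact mul_le_mul_of_nonneg_left (norm_sub_le _ _) (by norm_num)
    rw [hny] at h1
    linarith
  have h1 := hvar x₁ hx₁M hx₁s hx₁n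
  have h2 := hvar x₂ hx₂M hx₂s hx₂n
  have hdec : y = x₁ + Complex.I • x₂ := by
    rw [hx₁, hx₂, smul_smul]
    have : Complex.I * (-Complex.I / 2) = (1 / 2 : ℂ) := by
      have := Complex.I_mul_I
      linear_combination (-1 / 2 : ℂ) * this
    rw [this, ← smul_add]
    have : y + star y + (y - star y) = (2 : ℂ) • y := by
      rw [two_smul]; abel
    rw [this, smul_smul]
    norm_num
  have hsq : x₁ * x₁ + x₂ * x₂ = (1 / 2 : ℂ) • (star y * y + y * star y) := by
    rw [hx₁, hx₂]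
    simp only [smul_mul_smul_comm]
    have e1 : (-Complex.I / 2) * (-Complex.I / 2) = (-(1 / 4) : ℂ) := by
      have := Complex.I_mul_I
      linear_combination (1 / 4 : ℂ) * this
    have e2 : (1 / 2 : ℂ) * (1 / 2) = (1 / 4 : ℂ) := by norm_num
    rw [e1, e2]
    simp only [mul_add, add_mul, mul_sub, sub_mul]
    module
  set a := R (v S.vac) with ha
  set b₁ := R (v (x₁ S.vac)) with hb₁
  set b₂ := R (v (x₂ S.vac)) with hb₂
  have hexp : R (v (y S.vac)) = b₁ + Complex.I • b₂ := by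
    conv_lhs => rw [hdec]
    simp [hb₁, hb₂]
  have hnorm : ‖b₁ + Complex.I • b₂‖ ^ 2 ≤ 2 * ‖b₁‖ ^ 2 + 2 * ‖b₂‖ ^ 2 := by
    have h3 : ‖b₁ + Complex.I • b₂‖ ≤ ‖b₁‖ + ‖b₂‖ := by
      refine (norm_add_le _ _).trans ?_
      rw [norm_smul, Complex.norm_I, one_mul]
    have h4 : 0 ≤ ‖b₁ + Complex.I • b₂‖ := norm_nonneg _
    nlinarith [sq_nonneg (‖b₁‖ - ‖b₂‖), norm_nonneg b₁, norm_nonneg b₂]
  have hinner : (⟪a, R (v ((x₁ * x₁) S.vac))⟫).re + (⟪a, R (v ((x₂ * x₂) S.vac))⟫).re =
      (1 / 2) * (⟪a, R (v ((star y * y + y * star y) S.vac))⟫).re := by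
    rw [← Complex.add_re, ← inner_add_right, ← map_add, ← map_add]
    have : (x₁ * x₁) S.vac + (x₂ * x₂) S.vac = (x₁ * x₁ + x₂ * x₂) S.vac := by simp
    rw [this, hsq]
    simp only [smul_apply, map_smul, inner_smul_right]
    have : (1 / 2 : ℂ) = ((1 / 2 : ℝ) : ℂ) := by push_cast; rfl
    rw [this, Complex.re_ofReal_mul]
  rw [hexp]
  nlinarith

/-- The pointwise inequality along the flow. -/
theorem pointwise (R : H →L[ℂ] H) {a : H →L[ℂ] H} (ha : a ∈ S.M) (η' : ℝ) (hη' : 0 < η') :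
    ∃ v ∈ UM S, ∀ t : ℝ,
      ‖R (S.flow t a S.vac)‖ ^ 2 ≤
        (⟪R (v S.vac), R (v (S.flow t (star a * a) S.vac))⟫).re +
        (⟪R (v S.vac), R (S.flow t (a * star a) (v S.vac))⟫).re + η' := by
  obtain ⟨v, hv, hvar⟩ := variation_general S R ‖a‖ η' hη'
  refine ⟨v, hv, fun t => ?_⟩
  have hvu := hv.2
  have hvv : v * star v = 1 := (Unitary.mem_iff.1 hvu).2
  have hvv' : star v * v = 1 := (Unitary.mem_iff.1 hvu).1
  set f := S.flow t a with hf
  have hfM : f ∈ S.M := flow_mem_M S t ha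
  set y := star v * f with hy
  have hyM : y ∈ S.M := mul_mem (star_mem hv.1) hfM
  have hyn : ‖y‖ ≤ ‖a‖ := by
    refine ContinuousLinearMap.opNorm_le_bound _ (norm_nonneg _) (fun z => ?_)
    have h1 : y z = star v (f z) := rfl
    rw [h1]
    have h2 : star v ∈ UM S := ⟨star_mem hv.1, Unitary.star_mem hvu⟩
    rw [norm_UM_apply S h2]
    exact norm_flow_apply_le S t a z
  have key := hvar y hyM hyn
  have e1 : v (y S.vac) = f S.vac := by
    have : (v * y) = f := by
      rw [hy, ← mul_assoc, hvv, one_mul]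
    have h2 := congrArg (fun T : H →L[ℂ] H => T S.vac) this
    simpa using h2
  have e2 : star y * y = S.flow t (star a * a) := by
    rw [hy, star_mul, star_star, flow_mul, flow_star, mul_assoc, ← mul_assoc (v), hvv, one_mul]
  have e3 : v * (y * star y) = S.flow t (a * star a) * v := by
    rw [hy, star_mul, star_star, flow_mul, flow_star]
    simp only [mul_assoc]
    rw [← mul_assoc v, hvv, one_mul]
  have e4 : v ((star y * y + y * star y) S.vac) =
      v (S.flow t (star a * a) S.vac) + S.flow t (a * star a) (v S.vac) := by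
    have h1 : v ((y * star y) S.vac) = S.flow t (a * star a) (v S.vac) := by
      have h2 := congrArg (fun T : H →L[ℂ] H => T S.vac) e3
      simpa using h2
    have h3 : (star y * y + y * star y) S.vac = (star y * y) S.vac + (y * star y) S.vac := by simp
    rw [h3, map_add, h1, e2]
  rw [e1, e4, map_add, inner_add_right, Complex.add_re] at key
  exact key

end Crest.Agent.ModRec
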