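import Crest.Agent.Lib.ModRec.Pointwise
import Crest.Agent.Lib.ModRec.Kernel

set_option autoImplicit false

namespace Crest.Agent.ModRec

open Crest.OpAlg Filter MeasureTheory
open scoped Topology ComplexInnerProductSpace Nat

variable {H : Type*} [NormedAddCommGroup H] [InnerProductSpace ℂ H] [CompleteSpace H]
variable (S : ModularDatum H)

lemma integrable_smul_flow (f : ℝ → ℂ) (hf : Integrable f) (κ : ℝ) (v : H →L[ℂ] H) (y : H) :
    Integrable (fun τ => f τ • S.flow (κ * τ) v y) := by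
  refine (hf.norm.mul_const (‖v‖ * ‖y‖)).mono' ?_ ?_
  · exact hf.aestronglyMeasurable.smul
      ((continuous_flow_apply S v y).comp (continuous_const.mul continuous_id)).aestronglyMeasurable
  · filter_upwards with τ
    rw [norm_smul]
    exact mul_le_mul_of_nonneg_left (norm_flow_apply_le S _ v y) (norm_nonneg _)

/-- Smoothing an element of `M` against an integrable weight. -/
theorem exists_smoothing (f : ℝ → ℂ) (hf : Integrable f) (κ : ℝ) (χ : BCF)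
    (hχ : ∀ u, ∫ τ, f τ * LineCalculus.character (κ * τ) u = χ u)
    {v : H →L[ℂ] H} (hv : v ∈ S.M) :
    ∃ w ∈ S.M, ‖w‖ ≤ (∫ τ, ‖f τ‖) * ‖v‖ ∧ w S.vac = S.D.apply χ (v S.vac) := by
  have hC : 0 ≤ (∫ τ, ‖f τ‖) * ‖v‖ :=
    mul_nonneg (integral_nonneg (fun _ => norm_nonneg _)) (norm_nonneg _)
  let w₀ : H →ₗ[ℂ] H :=
    { toFun := fun y => ∫ τ, f τ • S.flow (κ * τ) v y
      map_add' := by
        intro y₁ y₂
        rw [← integral_add (integrable_smul_flow S f hf κ v y₁) (integrable_smul_flow S f hf κ v y₂)]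
        congr 1; ext τ
        rw [map_add, smul_add]
      map_smul' := by
        intro c y
        rw [RingHom.id_apply, ← integral_smul]
        congr 1; ext τ
        rw [map_smul, smul_comm] }
  have hbound : ∀ y, ‖w₀ y‖ ≤ ((∫ τ, ‖f τ‖) * ‖v‖) * ‖y‖ := by
    intro y
    calc ‖∫ τ, f τ • S.flow (κ * τ) v y‖ ≤ ∫ τ, ‖f τ • S.flow (κ * τ) v y‖ :=
          norm_integral_le_integral_norm _
      _ ≤ ∫ τ, ‖f τ‖ * (‖v‖ * ‖y‖) := by
          apply integral_mono (integrable_smul_flow S f hf κ v y).norm (hf.norm.mul_const _)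
          intro τ
          simp only
          rw [norm_smul]
          exact mul_le_mul_of_nonneg_left (norm_flow_apply_le S _ v y) (norm_nonneg _)
      _ = ((∫ τ, ‖f τ‖) * ‖v‖) * ‖y‖ := by
          rw [integral_mul_const]; ring
  let w : H →L[ℂ] H := w₀.mkContinuous ((∫ τ, ‖f τ‖) * ‖v‖) hbound
  have hw : ∀ y, w y = ∫ τ, f τ • S.flow (κ * τ) v y := fun y => rfl
  refine ⟨w, ?_, LinearMap.mkContinuous_norm_le _ hC _, ?_⟩
  · refine mem_M_of_commute S _ (fun g hg => ?_)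
    ext y
    simp only [mul_apply_eq_comp]
    rw [hw, hw, ← g.integral_comp_comm (integrable_smul_flow S f hf κ v y)]
    congr 1; ext τ
    rw [map_smul]
    have h2 := hg (S.flow (κ * τ) v) (flow_mem_M S _ hv)
    have h3 := congrArg (fun T : H →L[ℂ] H => T y) h2
    simp only [mul_apply_eq_comp] at h3
    rw [h3]
  · rw [hw]
    have h1 : ∀ τ, f τ • S.flow (κ * τ) v S.vac = f τ • S.D.wave (κ * τ) (v S.vac) := by
      intro τ
      rw [flow_vac]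
    simp_rw [h1]
    exact LC.integral_smul_wave S.D f hf κ χ hχ _

/-- The plateau function rescaled to a band. -/
noncomputable def bandCut (χ₀ : ℝ → ℂ) (hc : Continuous χ₀) (hb : ∀ u, ‖χ₀ u‖ ≤ 1) (s δ : ℝ) : BCF :=
  BoundedContinuousFunction.ofNormedAddCommGroup (fun u : ℝ => χ₀ ((u - s) / δ))
    (hc.comp ((continuous_id.sub continuous_const).div_const δ)) 1 (fun u => hb _)

@[simp] lemma bandCut_apply (χ₀ : ℝ → ℂ) (hc : Continuous χ₀) (hb : ∀ u, ‖χ₀ u‖ ≤ 1) (s δ u : ℝ) :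
    bandCut χ₀ hc hb s δ u = χ₀ ((u - s) / δ) := rfl

lemma norm_bandCut_le (χ₀ : ℝ → ℂ) (hc : Continuous χ₀) (hb : ∀ u, ‖χ₀ u‖ ≤ 1) (s δ : ℝ) :
    ‖bandCut χ₀ hc hb s δ‖ ≤ 1 := by
  rw [BoundedContinuousFunction.norm_le zero_le_one]
  intro u
  exact hb _

/-- The rescaled weight. -/
noncomputable def bandWeight (F₀ : ℝ → ℂ) (s δ : ℝ) (τ : ℝ) : ℂ :=
  F₀ τ * Complex.exp (((2 * Real.pi * τ * s / δ : ℝ) : ℂ) * Complex.I)

lemma norm_bandWeight (F₀ : ℝ → ℂ) (s δ τ : ℝ) : ‖bandWeight F₀ s δ τ‖ = ‖F₀ τ‖ := by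
  rw [bandWeight, norm_mul, Complex.norm_exp_ofReal_mul_I, mul_one]

lemma integrable_bandWeight {F₀ : ℝ → ℂ} (hF : Integrable F₀) (s δ : ℝ) :
    Integrable (bandWeight F₀ s δ) := by
  refine (hF.norm).mono' ?_ ?_
  · refine hF.aestronglyMeasurable.mul (Continuous.aestronglyMeasurable ?_)
    fun_prop
  · filter_upwards with τ
    rw [norm_bandWeight]

lemma integral_bandWeight {F₀ χ₀ : ℝ → ℂ} (hc : Continuous χ₀) (hb : ∀ u, ‖χ₀ u‖ ≤ 1)
    (hF : ∀ u : ℝ, ∫ τ : ℝ, F₀ τ * Complex.exp (((-2 * Real.pi * τ * u : ℝ) : ℂ) * Complex.I) = χ₀ u)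
    (s δ : ℝ) (hδ : δ ≠ 0) (u : ℝ) :
    ∫ τ, bandWeight F₀ s δ τ * LineCalculus.character ((-2 * Real.pi / δ) * τ) u =
      bandCut χ₀ hc hb s δ u := by
  rw [bandCut_apply, ← hF]
  congr 1
  ext τ
  rw [bandWeight, LC.character_apply, mul_assoc, ← Complex.exp_add]
  congr 2
  have : ((-2 * Real.pi * τ * ((u - s) / δ) : ℝ) : ℂ) * Complex.I =
      ((2 * Real.pi * τ * s / δ : ℝ) : ℂ) * Complex.I + Complex.I * (((-2 * Real.pi / δ * τ * u : ℝ)) : ℂ) := by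
    push_cast
    field_simp
    ring
  rw [this]

/-- Bounded vectors in the band: the smoothing of a unitary. -/
theorem exists_band_element {F₀ χ₀ : ℝ → ℂ} (hF₀ : Integrable F₀) (hc : Continuous χ₀)
    (hb : ∀ u, ‖χ₀ u‖ ≤ 1)
    (hF : ∀ u : ℝ, ∫ τ : ℝ, F₀ τ * Complex.exp (((-2 * Real.pi * τ * u : ℝ) : ℂ) * Complex.I) = χ₀ u)
    (s δ : ℝ) (hδ : δ ≠ 0) {v : H →L[ℂ] H} (hv : v ∈ S.M) (hv1 : ‖v‖ ≤ 1) :
    ∃ w ∈ S.M, ‖w‖ ≤ (∫ τ, ‖F₀ τ‖) ∧ w S.vac = S.D.apply (bandCut χ₀ hc hb s δ) (v S.vac) := by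
  obtain ⟨w, hw, hwn, hwv⟩ := exists_smoothing S (bandWeight F₀ s δ) (integrable_bandWeight hF₀ s δ)
    (-2 * Real.pi / δ) (bandCut χ₀ hc hb s δ) (integral_bandWeight hc hb hF s δ hδ) hv
  refine ⟨w, hw, ?_, hwv⟩
  have h1 : ∫ τ, ‖bandWeight F₀ s δ τ‖ = ∫ τ, ‖F₀ τ‖ := by
    congr 1; ext τ; exact norm_bandWeight F₀ s δ τ
  rw [h1] at hwn
  have h2 : 0 ≤ ∫ τ, ‖F₀ τ‖ := integral_nonneg (fun _ => norm_nonneg _)
  calc ‖w‖ ≤ (∫ τ, ‖F₀ τ‖) * ‖v‖ := hwn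
    _ ≤ (∫ τ, ‖F₀ τ‖) * 1 := mul_le_mul_of_nonneg_left hv1 h2
    _ = ∫ τ, ‖F₀ τ‖ := mul_one _

end Crest.Agent.ModRec
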