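import Crest.Agent.Lib.ModRec.Calculus

set_option autoImplicit false

namespace Crest.Agent.ModRec

open Crest.OpAlg Filter MeasureTheory
open scoped Topology ComplexInnerProductSpace

variable {H : Type*} [NormedAddCommGroup H] [InnerProductSpace ℂ H] [CompleteSpace H]

variable (S : ModularDatum H)

lemma mem_M_of_commute (x : H →L[ℂ] H)
    (hx : ∀ g : H →L[ℂ] H, (∀ m ∈ S.M, m * g = g * m) → g * x = x * g) : x ∈ S.M := by
  rw [← VonNeumannAlgebra.commutant_commutant S.M, VonNeumannAlgebra.mem_commutant_iff]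
  intro g hg
  rw [VonNeumannAlgebra.mem_commutant_iff] at hg
  exact hx g hg

lemma J_smul (c : ℂ) (x : H) : S.J (c • x) = (starRingEnd ℂ) c • S.J x :=
  map_smulₛₗ S.J c x

lemma norm_J (x : H) : ‖S.J x‖ = ‖x‖ := S.J.norm_map x

/-- The conjugate linear isometry reverses inner products. -/
lemma inner_J (x y : H) : ⟪S.J x, S.J y⟫ = ⟪y, x⟫ := by
  have hI : ∀ z w : H, ‖w - Complex.I • z‖ = ‖z + Complex.I • w‖ := by
    intro z w
    have : z + Complex.I • w = Complex.I • (w - Complex.I • z) := by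
      rw [smul_sub, smul_smul, Complex.I_mul_I]; simp [add_comm]
    rw [this, norm_smul]; simp
  have hI' : ∀ z w : H, ‖w + Complex.I • z‖ = ‖z - Complex.I • w‖ := by
    intro z w
    have : z - Complex.I • w = (-Complex.I) • (w + Complex.I • z) := by
      rw [smul_add, smul_smul, neg_mul, Complex.I_mul_I]; simp [sub_eq_add_neg, add_comm]
    rw [this, norm_smul]; simp
  rw [inner_eq_sum_norm_sq_div_four (𝕜 := ℂ) (S.J x) (S.J y),
    inner_eq_sum_norm_sq_div_four (𝕜 := ℂ) y x]
  have e1 : S.J x + S.J y = S.J (x + y) := by simp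
  have e2 : S.J x - S.J y = S.J (x - y) := by simp
  have e3 : S.J x - (RCLike.I : ℂ) • S.J y = S.J (x + Complex.I • y) := by
    rw [map_add, J_smul]; simp [sub_eq_add_neg]
  have e4 : S.J x + (RCLike.I : ℂ) • S.J y = S.J (x - Complex.I • y) := by
    rw [map_sub, J_smul]; simp [sub_eq_add_neg]
  rw [e1, e2, e3, e4, norm_J, norm_J, norm_J, norm_J]
  have e5 : ‖y - (RCLike.I : ℂ) • x‖ = ‖x + Complex.I • y‖ := hI x y
  have e6 : ‖y + (RCLike.I : ℂ) • x‖ = ‖x - Complex.I • y‖ := hI' x y
  rw [e5, e6, add_comm y x, norm_sub_rev y x]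

/-- The Tomita graph: a band limited pair belongs to the closure. -/
lemma pair_mem_closure (f g : BCF) (hfg : ∀ u : ℝ, g u = f u * ((Real.exp (u / 2) : ℝ) : ℂ)) (z : H) :
    (S.D.apply f z, S.J (S.D.apply g z)) ∈
      closure (Set.range fun a : S.M => ((a : H →L[ℂ] H) S.vac, star (a : H →L[ℂ] H) S.vac)) := by
  rw [S.tomita]
  show S.D.HalfExp (S.D.apply f z) (S.J (S.J (S.D.apply g z)))
  rw [S.J_J]
  intro f₁ g₁ h₁
  rw [LC.apply_apply, LC.apply_apply]
  congr 2
  ext u
  simp only [BoundedContinuousFunction.coe_mul, Pi.mul_apply]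
  rw [hfg u, h₁ u]
  ring

lemma closure_inner (p : H × H)
    (hp : p ∈ closure (Set.range fun a : S.M => ((a : H →L[ℂ] H) S.vac, star (a : H →L[ℂ] H) S.vac))) :
    ⟪p.2, S.vac⟫ = ⟪S.vac, p.1⟫ := by
  have hcl : IsClosed {q : H × H | ⟪q.2, S.vac⟫ = ⟪S.vac, q.1⟫} :=
    isClosed_eq (by fun_prop) (by fun_prop)
  refine closure_minimal ?_ hcl hp
  rintro _ ⟨a, rfl⟩
  show ⟪star (a : H →L[ℂ] H) S.vac, S.vac⟫ = ⟪S.vac, (a : H →L[ℂ] H) S.vac⟫
  rw [ContinuousLinearMap.star_eq_adjoint, ContinuousLinearMap.adjoint_inner_left]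

lemma inner_Jvac_apply (f g : BCF) (hfg : ∀ u : ℝ, g u = f u * ((Real.exp (u / 2) : ℝ) : ℂ)) (z : H) :
    ⟪S.J S.vac, S.D.apply g z⟫ = ⟪S.vac, S.D.apply f z⟫ := by
  have h := closure_inner S _ (pair_mem_closure S f g hfg z)
  simp only at h
  rw [← h]
  have := inner_J S (S.D.apply g z) (S.J S.vac)
  rw [S.J_J] at this
  exact this.symm

/-- `(*)` of the vacuum computation. -/
lemma apply_Jvac_of_half (f g : BCF) (hfg : ∀ u : ℝ, g u = f u * ((Real.exp (u / 2) : ℝ) : ℂ)) :
    S.D.apply g (S.J S.vac) = S.D.apply f S.vac := by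
  refine ext_inner_right ℂ (fun z => ?_)
  have hf' : ∀ u : ℝ, (star g) u = (star f) u * ((Real.exp (u / 2) : ℝ) : ℂ) := by
    intro u
    simp only [BoundedContinuousFunction.star_apply]
    rw [hfg u, star_mul']
    congr 1
    exact Complex.conj_ofReal _
  have h := inner_Jvac_apply S (star f) (star g) hf' z
  rw [map_star, map_star, ContinuousLinearMap.star_eq_adjoint, ContinuousLinearMap.star_eq_adjoint,
    ContinuousLinearMap.adjoint_inner_right, ContinuousLinearMap.adjoint_inner_right] at h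
  exact h

/-- `(**)` of the vacuum computation. -/
lemma halfExp_vac : S.D.HalfExp S.vac (S.J S.vac) := by
  have h1 : (S.vac, S.vac) ∈
      closure (Set.range fun a : S.M => ((a : H →L[ℂ] H) S.vac, star (a : H →L[ℂ] H) S.vac)) := by
    apply subset_closure
    refine ⟨1, ?_⟩
    simp
  rw [S.tomita] at h1
  exact h1

lemma apply_vac_eq_of_exp (f₀ f₁ f₂ : BCF)
    (h₁ : ∀ u : ℝ, f₁ u = f₀ u * ((Real.exp (u / 2) : ℝ) : ℂ))
    (h₂ : ∀ u : ℝ, f₂ u = f₁ u * ((Real.exp (u / 2) : ℝ) : ℂ)) :
    S.D.apply f₀ S.vac = S.D.apply f₂ S.vac := by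
  rw [← apply_Jvac_of_half S f₀ f₁ h₁]
  exact halfExp_vac S f₁ f₂ h₂

/-- A bounded continuous function from a continuous compactly supported one. -/
noncomputable def bcfOfCompact (f : ℝ → ℂ) (hc : Continuous f) (hs : HasCompactSupport f) : BCF :=
  BoundedContinuousFunction.ofNormedAddCommGroup f hc
    (Classical.choose (hs.exists_bound_of_continuous hc))
    (Classical.choose_spec (hs.exists_bound_of_continuous hc))

@[simp] lemma bcfOfCompact_apply (f : ℝ → ℂ) (hc : Continuous f) (hs : HasCompactSupport f) (u : ℝ) :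
    bcfOfCompact f hc hs u = f u := rfl

lemma apply_vac_eq_exp_of_compact (q : ℝ → ℂ) (hc : Continuous q) (hs : HasCompactSupport q) :
    S.D.apply (bcfOfCompact q hc hs) S.vac =
      S.D.apply (bcfOfCompact (fun u => q u * ((Real.exp u : ℝ) : ℂ))
        (hc.mul (by fun_prop)) hs.mul_right) S.vac := by
  refine apply_vac_eq_of_exp S _ (bcfOfCompact (fun u => q u * ((Real.exp (u / 2) : ℝ) : ℂ))
        (hc.mul (by fun_prop)) hs.mul_right) _ ?_ ?_
  · intro u; simp
  · intro u
    simp only [bcfOfCompact_apply]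
    rw [mul_assoc, ← Complex.ofReal_mul, ← Real.exp_add]
    congr 3
    ring

/-- The vacuum is invariant under the modular group. -/
theorem wave_vac (t : ℝ) : S.D.wave t S.vac = S.vac := by
  -- the functions whose ratio we use
  set c : ℝ → ℂ := fun u => Complex.exp (Complex.I * ((t * u : ℝ) : ℂ)) with hc
  set e : ℝ → ℂ := fun u => ((Real.exp u : ℝ) : ℂ) with he
  have hcd : Differentiable ℝ c := by
    intro u
    have : HasDerivAt (fun u : ℝ => Complex.I * ((t * u : ℝ) : ℂ)) (Complex.I * (t : ℂ)) u := by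
      have h1 : HasDerivAt (fun u : ℝ => ((t * u : ℝ) : ℂ)) (t : ℂ) u := by
        have := ((hasDerivAt_id u).const_mul t).ofReal_comp
        simpa using this
      simpa using h1.const_mul Complex.I
    exact this.cexp.differentiableAt
  have hed : Differentiable ℝ e := by
    intro u
    exact ((Real.hasDerivAt_exp u).ofReal_comp).differentiableAt
  have hcont : ∀ {f : ℝ → ℂ}, Differentiable ℝ f → Continuous (dslope f 0) := by
    intro f hf
    rw [← continuousOn_univ]
    rw [continuousOn_dslope Filter.univ_mem]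
    exact ⟨hf.continuous.continuousOn, hf 0⟩
  have hne : ∀ u : ℝ, dslope e 0 u ≠ 0 := by
    intro u
    by_cases hu : u = 0
    · subst hu
      rw [dslope_same]
      have : HasDerivAt e ((Real.exp 0 : ℝ) : ℂ) 0 := (Real.hasDerivAt_exp 0).ofReal_comp
      rw [this.deriv]
      simp
    · intro h0
      have h1 := sub_smul_dslope e 0 u
      rw [h0, smul_zero] at h1
      have h2 : e u = 1 := by
        have : e 0 = 1 := by simp [he]
        rw [this] at h1
        exact (sub_eq_zero.1 h1.symm)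
      have h3 : Real.exp u = 1 := by
        have : ((Real.exp u : ℝ) : ℂ) = ((1 : ℝ) : ℂ) := by simpa [he] using h2
        exact_mod_cast this
      exact hu (Real.exp_eq_one_iff u |>.1 h3)
  have hratio : Continuous (fun u => dslope c 0 u / dslope e 0 u) :=
    (hcont hcd).div (hcont hed) hne
  -- the main estimate
  rw [← sub_eq_zero, ← norm_le_zero_iff]
  apply le_of_forall_pos_le_add
  intro ε hε
  obtain ⟨g, hg, hgy⟩ := S.D.window S.vac (ε / 2) (half_pos hε)
  set q : ℝ → ℂ := fun u => g u * (dslope c 0 u / dslope e 0 u) with hq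
  have hqc : Continuous q := g.continuous.mul hratio
  have hqs : HasCompactSupport q := hg.mul_right
  have hkey := apply_vac_eq_exp_of_compact S q hqc hqs
  have hzero : S.D.wave t (S.D.apply g S.vac) = S.D.apply g S.vac := by
    rw [LC.wave_apply]
    have h1 : LineCalculus.character t * g = g + (bcfOfCompact (fun u => q u * ((Real.exp u : ℝ) : ℂ))
        (hqc.mul (by fun_prop)) hqs.mul_right - bcfOfCompact q hqc hqs) := by
      ext u
      simp only [BoundedContinuousFunction.coe_mul, Pi.mul_apply, BoundedContinuousFunction.coe_add,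
        Pi.add_apply, BoundedContinuousFunction.coe_sub, Pi.sub_apply, bcfOfCompact_apply, hq,
        LC.character_apply]
      have h2 : (u - 0) • dslope c 0 u = c u - c 0 := sub_smul_dslope c 0 u
      have h3 : (u - 0) • dslope e 0 u = e u - e 0 := sub_smul_dslope e 0 u
      have h4 : c 0 = 1 := by simp [hc]
      have h5 : e 0 = 1 := by simp [he]
      rw [h4] at h2
      rw [h5] at h3
      simp only [sub_zero, Complex.real_smul] at h2 h3
      have h6 := hne u
      have h7 : Complex.exp (Complex.I * ((t * u : ℝ) : ℂ)) = 1 + (u : ℂ) * dslope c 0 u := by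
        have : c u = 1 + (u : ℂ) * dslope c 0 u := by rw [h2]; ring
        exact this
      have h8 : ((Real.exp u : ℝ) : ℂ) - 1 = (u : ℂ) * dslope e 0 u := by
        have : e u - 1 = (u : ℂ) * dslope e 0 u := h3.symm
        exact this
      rw [h7]
      have h9 : g u * (dslope c 0 u / dslope e 0 u) * ((Real.exp u : ℝ) : ℂ)
          - g u * (dslope c 0 u / dslope e 0 u)
          = g u * (dslope c 0 u / dslope e 0 u) * (((Real.exp u : ℝ) : ℂ) - 1) := by ring
      rw [h9, h8]
      field_simp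
    rw [h1, map_add, map_sub]
    simp only [add_apply, sub_apply]
    rw [← hkey]
    simp
  set y₁ := S.D.apply g S.vac with hy₁
  have e1 : S.D.wave t S.vac - S.vac = S.D.wave t (S.vac - y₁) + (y₁ - S.vac) := by
    rw [map_sub, hzero]; abel
  rw [e1]
  calc ‖S.D.wave t (S.vac - y₁) + (y₁ - S.vac)‖
      ≤ ‖S.D.wave t (S.vac - y₁)‖ + ‖y₁ - S.vac‖ := norm_add_le _ _
    _ = ‖y₁ - S.vac‖ + ‖y₁ - S.vac‖ := by
        rw [LC.norm_wave_apply, norm_sub_rev]
    _ ≤ 0 + ε := by linarith

end Crest.Agent.ModRec
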