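import Crest.Agent.Lib.ModRec.Mean

set_option autoImplicit false

namespace Crest.Agent.ModRec

open Crest.OpAlg Filter MeasureTheory
open scoped Topology ComplexInnerProductSpace Nat

/-- Third order remainder of the exponential series in a complex Banach algebra. -/
lemma norm_exp_remainder {A : Type*} [NormedRing A] [NormedAlgebra ℂ A] [CompleteSpace A]
    (y : A) (hy : ‖y‖ ≤ 1) :
    ‖NormedSpace.exp y - (1 + y + (1 / 2 : ℂ) • y ^ 2)‖ ≤ ‖y‖ ^ 3 := by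
  have hs : HasSum (fun n : ℕ => ((n ! : ℂ)⁻¹) • y ^ n) (NormedSpace.exp y) :=
    NormedSpace.exp_series_hasSum_exp' (𝕂 := ℂ) y
  have hs3 := (hasSum_nat_add_iff' (f := fun n : ℕ => ((n ! : ℂ)⁻¹) • y ^ n) 3).2 hs
  have hsum : (∑ i ∈ Finset.range 3, ((i ! : ℂ)⁻¹) • y ^ i) = 1 + y + (1 / 2 : ℂ) • y ^ 2 := by
    simp [Finset.sum_range_succ, Nat.factorial]
  rw [hsum] at hs3
  have hr : HasSum (fun n : ℕ => ‖y‖ ^ n / (n ! : ℝ)) (Real.exp ‖y‖) := by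
    have := NormedSpace.expSeries_div_hasSum_exp (‖y‖ : ℝ)
    rwa [← Real.exp_eq_exp_ℝ] at this
  have hr3 := (hasSum_nat_add_iff' (f := fun n : ℕ => ‖y‖ ^ n / (n ! : ℝ)) 3).2 hr
  have hbound : ∀ n : ℕ, ‖((((n + 3)! : ℕ) : ℂ)⁻¹) • y ^ (n + 3)‖ ≤ ‖y‖ ^ (n + 3) / (((n + 3)! : ℕ) : ℝ) := by
    intro n
    rw [norm_smul, norm_inv, Complex.norm_natCast, div_eq_inv_mul]
    exact mul_le_mul_of_nonneg_left (norm_pow_le' y (by omega)) (by positivity)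
  have h1 := hs3.norm_le_of_bounded hr3 hbound
  refine h1.trans ?_
  have h2 := Real.exp_bound' (norm_nonneg y) hy (n := 3) (by norm_num)
  have hsum' : (∑ i ∈ Finset.range 3, ‖y‖ ^ i / (i ! : ℝ)) = 1 + ‖y‖ + ‖y‖ ^ 2 / 2 := by
    simp [Finset.sum_range_succ, Nat.factorial]
  rw [hsum'] at h2 ⊢
  have h3 : 0 ≤ ‖y‖ ^ 3 := by positivity
  have h4 : ‖y‖ ^ 3 * ((3 : ℕ) + 1) / (((3 : ℕ)! : ℝ) * (3 : ℕ)) = ‖y‖ ^ 3 * (2 / 9) := by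
    simp [Nat.factorial]
    ring
  rw [h4] at h2
  linarith

variable {H : Type*} [NormedAddCommGroup H] [InnerProductSpace ℂ H]

lemma norm_add_sq_ge (a d : H) : ‖a‖ ^ 2 + 2 * (⟪a, d⟫).re ≤ ‖a + d‖ ^ 2 := by
  have := @norm_add_sq ℂ H _ _ _ a d
  simp only [RCLike.re_to_complex] at this
  rw [this]
  nlinarith [sq_nonneg ‖d‖]

/-- The Hilbert space part of the second order variation. -/
lemma key_ineq (a b c e₁ e₂ : H) (τ A : ℝ) (hτ : 0 ≤ τ)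
    (hP : ‖a + (Complex.I * (τ : ℂ)) • b - ((τ ^ 2 / 2 : ℝ) : ℂ) • c + e₁‖ ^ 2 ≤ A ^ 2)
    (hM : ‖a - (Complex.I * (τ : ℂ)) • b - ((τ ^ 2 / 2 : ℝ) : ℂ) • c + e₂‖ ^ 2 ≤ A ^ 2) :
    ‖a‖ ^ 2 - τ ^ 2 * (⟪a, c⟫).re + τ ^ 2 * ‖b‖ ^ 2 - (‖a‖ + τ * ‖b‖) * (‖e₁‖ + ‖e₂‖) ≤ A ^ 2 := by
  set t₂ : ℂ := ((τ ^ 2 / 2 : ℝ) : ℂ) with ht₂
  set it : ℂ := Complex.I * (τ : ℂ) with hit
  set P : H := a - t₂ • c + (1 / 2 : ℂ) • (e₁ + e₂) with hPd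
  set Q : H := it • b + (1 / 2 : ℂ) • (e₁ - e₂) with hQd
  have hplus : a + it • b - t₂ • c + e₁ = P + Q := by
    rw [hPd, hQd]; module
  have hminus : a - it • b - t₂ • c + e₂ = P - Q := by
    rw [hPd, hQd]; module
  rw [hplus] at hP
  rw [hminus] at hM
  have hpar := parallelogram_law_with_norm ℂ P Q
  have hsum : ‖P‖ ^ 2 + ‖Q‖ ^ 2 ≤ A ^ 2 := by nlinarith
  have hP1 : ‖a‖ ^ 2 - τ ^ 2 * (⟪a, c⟫).re - ‖a‖ * (‖e₁‖ + ‖e₂‖) ≤ ‖P‖ ^ 2 := by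
    have h := norm_add_sq_ge a (-(t₂ • c) + (1 / 2 : ℂ) • (e₁ + e₂))
    have e : a + (-(t₂ • c) + (1 / 2 : ℂ) • (e₁ + e₂)) = P := by rw [hPd]; module
    rw [e] at h
    refine le_trans ?_ h
    rw [inner_add_right, inner_neg_right, inner_smul_right, inner_smul_right, Complex.add_re,
      Complex.neg_re, ht₂, Complex.re_ofReal_mul]
    have h1 : (((1 / 2 : ℂ)) * ⟪a, e₁ + e₂⟫).re = (1 / 2) * (⟪a, e₁ + e₂⟫).re := by
      have : (1 / 2 : ℂ) = ((1 / 2 : ℝ) : ℂ) := by push_cast; rfl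
      rw [this, Complex.re_ofReal_mul]
    rw [h1]
    have h2 : -(‖a‖ * (‖e₁‖ + ‖e₂‖)) ≤ (⟪a, e₁ + e₂⟫).re := by
      have h3 := Complex.abs_re_le_norm (⟪a, e₁ + e₂⟫)
      have h4 : ‖⟪a, e₁ + e₂⟫‖ ≤ ‖a‖ * ‖e₁ + e₂‖ := norm_inner_le_norm _ _
      have h5 : ‖e₁ + e₂‖ ≤ ‖e₁‖ + ‖e₂‖ := norm_add_le _ _
      have h6 : ‖a‖ * ‖e₁ + e₂‖ ≤ ‖a‖ * (‖e₁‖ + ‖e₂‖) := mul_le_mul_of_nonneg_left h5 (norm_nonneg _)
      have h7 := neg_abs_le (⟪a, e₁ + e₂⟫).re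
      linarith
    nlinarith
  have hQ1 : τ ^ 2 * ‖b‖ ^ 2 - τ * ‖b‖ * (‖e₁‖ + ‖e₂‖) ≤ ‖Q‖ ^ 2 := by
    have h := norm_add_sq_ge (it • b) ((1 / 2 : ℂ) • (e₁ - e₂))
    rw [← hQd] at h
    refine le_trans ?_ h
    have hn : ‖it • b‖ = τ * ‖b‖ := by
      rw [norm_smul, hit, norm_mul, Complex.norm_I, one_mul, Complex.norm_real, Real.norm_eq_abs,
        abs_of_nonneg hτ]
    rw [hn, inner_smul_right]
    have h1 : (((1 / 2 : ℂ)) * ⟪it • b, e₁ - e₂⟫).re = (1 / 2) * (⟪it • b, e₁ - e₂⟫).re := by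
      have : (1 / 2 : ℂ) = ((1 / 2 : ℝ) : ℂ) := by push_cast; rfl
      rw [this, Complex.re_ofReal_mul]
    rw [h1]
    have h2 : -(τ * ‖b‖ * (‖e₁‖ + ‖e₂‖)) ≤ (⟪it • b, e₁ - e₂⟫).re := by
      have h3 := Complex.abs_re_le_norm (⟪it • b, e₁ - e₂⟫)
      have h4 : ‖⟪it • b, e₁ - e₂⟫‖ ≤ ‖it • b‖ * ‖e₁ - e₂‖ := norm_inner_le_norm _ _
      have h5 : ‖e₁ - e₂‖ ≤ ‖e₁‖ + ‖e₂‖ := norm_sub_le _ _
      rw [hn] at h4
      have h6 : τ * ‖b‖ * ‖e₁ - e₂‖ ≤ τ * ‖b‖ * (‖e₁‖ + ‖e₂‖) :=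
        mul_le_mul_of_nonneg_left h5 (by positivity)
      have h7 := neg_abs_le (⟪it • b, e₁ - e₂⟫).re
      linarith
    have h8 : (τ * ‖b‖) ^ 2 = τ ^ 2 * ‖b‖ ^ 2 := by ring
    nlinarith
  nlinarith

variable [CompleteSpace H] (S : ModularDatum H)

/-- The unitary operators belonging to the von Neumann algebra. -/
def UM : Set (H →L[ℂ] H) := {v | v ∈ S.M ∧ v ∈ unitary (H →L[ℂ] H)}

lemma one_mem_UM : (1 : H →L[ℂ] H) ∈ UM S := ⟨one_mem _, one_mem _⟩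

lemma mul_mem_UM {v w : H →L[ℂ] H} (hv : v ∈ UM S) (hw : w ∈ UM S) : v * w ∈ UM S :=
  ⟨mul_mem hv.1 hw.1, mul_mem hv.2 hw.2⟩

lemma norm_UM_apply {v : H →L[ℂ] H} (hv : v ∈ UM S) (y : H) : ‖v y‖ = ‖y‖ :=
  ContinuousLinearMap.norm_map_of_mem_unitary hv.2 y

lemma norm_apply_UM_le (R : H →L[ℂ] H) {v : H →L[ℂ] H} (hv : v ∈ UM S) (y : H) :
    ‖R (v y)‖ ≤ ‖R‖ * ‖y‖ := by
  calc ‖R (v y)‖ ≤ ‖R‖ * ‖v y‖ := R.le_opNorm _
    _ = ‖R‖ * ‖y‖ := by rw [norm_UM_apply S hv]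

/-- The supremum of `‖R v ξ‖` over the unitaries of `M`. -/
noncomputable def supU (R : H →L[ℂ] H) : ℝ := sSup ((fun v : H →L[ℂ] H => ‖R (v S.vac)‖) '' UM S)

lemma bddAbove_supU (R : H →L[ℂ] H) :
    BddAbove ((fun v : H →L[ℂ] H => ‖R (v S.vac)‖) '' UM S) := by
  refine ⟨‖R‖, ?_⟩
  rintro _ ⟨v, hv, rfl⟩
  simpa [S.norm_vac] using norm_apply_UM_le S R hv S.vac

lemma le_supU (R : H →L[ℂ] H) {v : H →L[ℂ] H} (hv : v ∈ UM S) : ‖R (v S.vac)‖ ≤ supU S R :=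
  le_csSup (bddAbove_supU S R) ⟨v, hv, rfl⟩

lemma supU_nonneg (R : H →L[ℂ] H) : 0 ≤ supU S R :=
  (norm_nonneg _).trans (le_supU S R (one_mem_UM S))

lemma exists_near_max (R : H →L[ℂ] H) (ε : ℝ) (hε : 0 < ε) :
    ∃ v ∈ UM S, (supU S R) ^ 2 - ε < ‖R (v S.vac)‖ ^ 2 := by
  set A := supU S R with hA
  have hA0 : 0 ≤ A := supU_nonneg S R
  have hδ : 0 < ε / (2 * A + 1) := by positivity
  have hne : ((fun v : H →L[ℂ] H => ‖R (v S.vac)‖) '' UM S).Nonempty :=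
    ⟨_, 1, one_mem_UM S, rfl⟩
  obtain ⟨_, ⟨v, hv, rfl⟩, hlt⟩ := exists_lt_of_lt_csSup hne (show A - ε / (2 * A + 1) < A by linarith)
  refine ⟨v, hv, ?_⟩
  simp only at hlt
  have hr : ‖R (v S.vac)‖ ≤ A := le_supU S R hv
  have hr0 : 0 ≤ ‖R (v S.vac)‖ := norm_nonneg _
  set r := ‖R (v S.vac)‖ with hrd
  have h1 : (A - r) * (2 * A + 1) < ε := by
    have : A - r < ε / (2 * A + 1) := by linarith
    have h2 : 0 < 2 * A + 1 := by positivity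
    calc (A - r) * (2 * A + 1) < ε / (2 * A + 1) * (2 * A + 1) := mul_lt_mul_of_pos_right this h2
      _ = ε := by field_simp
  nlinarith

lemma exp_mem_M {y : H →L[ℂ] H} (hy : y ∈ S.M) : NormedSpace.exp y ∈ S.M := by
  refine mem_M_of_commute S _ (fun g hg => ?_)
  have h1 : Commute g y := (hg y hy).symm
  exact h1.exp_right

lemma exp_unitary {x : H →L[ℂ] H} (hx : IsSelfAdjoint x) (τ : ℝ) :
    NormedSpace.exp ((Complex.I * (τ : ℂ)) • x) ∈ unitary (H →L[ℂ] H) := by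
  let +nondep : NormedAlgebra ℚ (H →L[ℂ] H) := .restrictScalars ℚ ℂ _
  apply NormedSpace.exp_mem_unitary_of_mem_skewAdjoint
  rw [skewAdjoint.mem_iff, star_smul, hx.star_eq]
  simp [Complex.conj_ofReal]

/-- Linear evaluation used in the variation. -/
lemma variation_selfAdjoint (R : H →L[ℂ] H) (L η' : ℝ) (hη' : 0 < η') :
    ∃ v ∈ UM S, ∀ x ∈ S.M, IsSelfAdjoint x → ‖x‖ ≤ L →
      ‖R (v (x S.vac))‖ ^ 2 ≤ (⟪R (v S.vac), R (v ((x * x) S.vac))⟫).re + η' := by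
  set L₁ : ℝ := |L| + 1 with hL₁
  have hL₁1 : 1 ≤ L₁ := by rw [hL₁]; linarith [abs_nonneg L]
  have hL₁0 : 0 < L₁ := by linarith
  set C₀ : ℝ := ‖R‖ with hC₀
  have hC₀0 : 0 ≤ C₀ := norm_nonneg _
  set K : ℝ := 8 * (C₀ ^ 2 + 1) * L₁ ^ 3 with hK
  have hK0 : 0 < K := by positivity
  set τ : ℝ := min (1 / L₁) (η' / K) with hτd
  have hτ0 : 0 < τ := lt_min (by positivity) (by positivity)
  have hτ1 : τ * L₁ ≤ 1 := by
    have : τ ≤ 1 / L₁ := min_le_left _ _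
    calc τ * L₁ ≤ 1 / L₁ * L₁ := mul_le_mul_of_nonneg_right this hL₁0.le
      _ = 1 := by field_simp
  have hτ2 : τ * K ≤ η' := by
    have : τ ≤ η' / K := min_le_right _ _
    calc τ * K ≤ η' / K * K := mul_le_mul_of_nonneg_right this hK0.le
      _ = η' := by field_simp
  obtain ⟨v, hv, hvmax⟩ := exists_near_max S R ((η' / 2) * τ ^ 2) (by positivity)
  refine ⟨v, hv, fun x hxM hxs hxL => ?_⟩
  have hxL₁ : ‖x‖ ≤ L₁ := by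
    rw [hL₁]; linarith [le_abs_self L]
  have hvac : ‖S.vac‖ = 1 := S.norm_vac
  -- the evaluation
  set ev : (H →L[ℂ] H) → H := fun w => R (v (w S.vac)) with hev
  have ev_add : ∀ w₁ w₂, ev (w₁ + w₂) = ev w₁ + ev w₂ := by
    intro w₁ w₂; simp [hev]
  have ev_smul : ∀ (c : ℂ) w, ev (c • w) = c • ev w := by
    intro c w; simp [hev]
  have ev_bound : ∀ w, ‖ev w‖ ≤ C₀ * ‖w‖ := by
    intro w
    calc ‖ev w‖ ≤ C₀ * ‖w S.vac‖ := norm_apply_UM_le S R hv _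
      _ ≤ C₀ * (‖w‖ * ‖S.vac‖) := mul_le_mul_of_nonneg_left (w.le_opNorm _) hC₀0
      _ = C₀ * ‖w‖ := by rw [hvac, mul_one]
  have ev_one : ev 1 = R (v S.vac) := by simp [hev]
  set a := ev 1 with ha
  set b := ev x with hb
  set c := ev (x * x) with hc
  set y : H →L[ℂ] H := (Complex.I * (τ : ℂ)) • x with hy
  have hyM : y ∈ S.M := by
    rw [hy]; exact (S.M.toStarSubalgebra).smul_mem hxM _
  have hy_norm : ‖y‖ ≤ τ * L₁ := by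
    rw [hy, norm_smul, norm_mul, Complex.norm_I, one_mul, Complex.norm_real, Real.norm_eq_abs,
      abs_of_pos hτ0]
    exact mul_le_mul_of_nonneg_left hxL₁ hτ0.le
  have hy1 : ‖y‖ ≤ 1 := hy_norm.trans hτ1
  have hy_sq : (1 / 2 : ℂ) • y ^ 2 = -(((τ ^ 2 / 2 : ℝ) : ℂ) • (x * x)) := by
    rw [hy, pow_two, smul_mul_smul_comm, smul_smul, ← neg_smul]
    congr 1
    have : Complex.I * (τ : ℂ) * (Complex.I * (τ : ℂ)) = -((τ : ℂ) ^ 2) := by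
      have h2 := Complex.I_mul_I
      linear_combination ((τ : ℂ) ^ 2) * h2
    rw [this]
    push_cast
    ring
  -- exponentials
  set r₁ := NormedSpace.exp y - (1 + y + (1 / 2 : ℂ) • y ^ 2) with hr₁
  set r₂ := NormedSpace.exp (-y) - (1 + (-y) + (1 / 2 : ℂ) • (-y) ^ 2) with hr₂
  have hr₁n : ‖r₁‖ ≤ (τ * L₁) ^ 3 := (norm_exp_remainder y hy1).trans
    (pow_le_pow_left₀ (norm_nonneg _) hy_norm 3)
  have hr₂n : ‖r₂‖ ≤ (τ * L₁) ^ 3 := by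
    have := norm_exp_remainder (-y) (by rwa [norm_neg])
    rw [norm_neg] at this
    exact this.trans (pow_le_pow_left₀ (norm_nonneg _) hy_norm 3)
  have hexp₁ : NormedSpace.exp y = 1 + (Complex.I * (τ : ℂ)) • x - ((τ ^ 2 / 2 : ℝ) : ℂ) • (x * x) + r₁ := by
    rw [hr₁, hy_sq, ← hy]; abel
  have hexp₂ : NormedSpace.exp (-y) = 1 - (Complex.I * (τ : ℂ)) • x - ((τ ^ 2 / 2 : ℝ) : ℂ) • (x * x) + r₂ := by
    rw [hr₂, neg_sq, hy_sq, ← hy]; abel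
  have hev₁ : ev (NormedSpace.exp y) = a + (Complex.I * (τ : ℂ)) • b - ((τ ^ 2 / 2 : ℝ) : ℂ) • c + ev r₁ := by
    rw [hexp₁, ev_add, sub_eq_add_neg, ev_add, ev_add, ev_smul]
    have : ev (-(((τ ^ 2 / 2 : ℝ) : ℂ) • (x * x))) = -(((τ ^ 2 / 2 : ℝ) : ℂ) • c) := by
      have h1 : -(((τ ^ 2 / 2 : ℝ) : ℂ) • (x * x)) = (-((τ ^ 2 / 2 : ℝ) : ℂ)) • (x * x) := by
        rw [neg_smul]
      rw [h1, ev_smul, neg_smul]
    rw [this]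
    abel
  have hev₂ : ev (NormedSpace.exp (-y)) = a - (Complex.I * (τ : ℂ)) • b - ((τ ^ 2 / 2 : ℝ) : ℂ) • c + ev r₂ := by
    rw [hexp₂, ev_add, sub_eq_add_neg, sub_eq_add_neg, ev_add, ev_add]
    have h1 : ev (-(((τ ^ 2 / 2 : ℝ) : ℂ) • (x * x))) = -(((τ ^ 2 / 2 : ℝ) : ℂ) • c) := by
      have h1 : -(((τ ^ 2 / 2 : ℝ) : ℂ) • (x * x)) = (-((τ ^ 2 / 2 : ℝ) : ℂ)) • (x * x) := by
        rw [neg_smul]
      rw [h1, ev_smul, neg_smul]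
    have h2 : ev (-((Complex.I * (τ : ℂ)) • x)) = -((Complex.I * (τ : ℂ)) • b) := by
      have h1 : -((Complex.I * (τ : ℂ)) • x) = (-(Complex.I * (τ : ℂ))) • x := by
        rw [neg_smul]
      rw [h1, ev_smul, neg_smul]
    rw [h1, h2]
    abel
  set A := supU S R with hA
  have hA0 : 0 ≤ A := supU_nonneg S R
  have hbound₁ : ‖ev (NormedSpace.exp y)‖ ≤ A := by
    have hmem : v * NormedSpace.exp y ∈ UM S :=
      mul_mem_UM S hv ⟨exp_mem_M S hyM, exp_unitary hxs τ⟩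
    exact le_supU S R hmem
  have hbound₂ : ‖ev (NormedSpace.exp (-y))‖ ≤ A := by
    have hneg : -y = (Complex.I * ((-τ : ℝ) : ℂ)) • x := by
      rw [hy, ← neg_smul]
      congr 1
      push_cast
      ring
    have hmem : v * NormedSpace.exp (-y) ∈ UM S := by
      refine mul_mem_UM S hv ⟨exp_mem_M S (neg_mem hyM), ?_⟩
      rw [hneg]
      exact exp_unitary hxs _
    exact le_supU S R hmem
  have hP : ‖a + (Complex.I * (τ : ℂ)) • b - ((τ ^ 2 / 2 : ℝ) : ℂ) • c + ev r₁‖ ^ 2 ≤ A ^ 2 := by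
    rw [← hev₁]
    exact pow_le_pow_left₀ (norm_nonneg _) hbound₁ 2
  have hM : ‖a - (Complex.I * (τ : ℂ)) • b - ((τ ^ 2 / 2 : ℝ) : ℂ) • c + ev r₂‖ ^ 2 ≤ A ^ 2 := by
    rw [← hev₂]
    exact pow_le_pow_left₀ (norm_nonneg _) hbound₂ 2
  have hmain := key_ineq a b c (ev r₁) (ev r₂) τ A hτ0.le hP hM
  -- estimates on the error terms
  have ha_norm : ‖a‖ ≤ C₀ := by
    have := ev_bound 1
    refine this.trans ?_
    have h1 : ‖(1 : H →L[ℂ] H)‖ ≤ 1 := ContinuousLinearMap.norm_id_le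
    calc C₀ * ‖(1 : H →L[ℂ] H)‖ ≤ C₀ * 1 := mul_le_mul_of_nonneg_left h1 hC₀0
      _ = C₀ := mul_one _
  have hb_norm : τ * ‖b‖ ≤ C₀ := by
    have h1 := ev_bound x
    calc τ * ‖b‖ ≤ τ * (C₀ * L₁) := by
          refine mul_le_mul_of_nonneg_left (h1.trans ?_) hτ0.le
          exact mul_le_mul_of_nonneg_left hxL₁ hC₀0
      _ = C₀ * (τ * L₁) := by ring
      _ ≤ C₀ * 1 := mul_le_mul_of_nonneg_left hτ1 hC₀0
      _ = C₀ := mul_one _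
  have he₁ : ‖ev r₁‖ ≤ C₀ * (τ * L₁) ^ 3 :=
    (ev_bound _).trans (mul_le_mul_of_nonneg_left hr₁n hC₀0)
  have he₂ : ‖ev r₂‖ ≤ C₀ * (τ * L₁) ^ 3 :=
    (ev_bound _).trans (mul_le_mul_of_nonneg_left hr₂n hC₀0)
  have herr : (‖a‖ + τ * ‖b‖) * (‖ev r₁‖ + ‖ev r₂‖) ≤ (2 * C₀) * (2 * (C₀ * (τ * L₁) ^ 3)) := by
    apply mul_le_mul (by linarith) (by linarith) (by positivity) (by positivity)
  have hev₀ : ‖a‖ ^ 2 > A ^ 2 - (η' / 2) * τ ^ 2 := by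
    rw [ev_one]
    exact hvmax
  -- conclude
  have hτsq : 0 < τ ^ 2 := by positivity
  have hfinal : τ ^ 2 * (‖b‖ ^ 2 - (⟪a, c⟫).re) ≤ τ ^ 2 * ((η' / 2) + 4 * C₀ ^ 2 * τ * L₁ ^ 3) := by
    have e : (2 * C₀) * (2 * (C₀ * (τ * L₁) ^ 3)) = τ ^ 2 * (4 * C₀ ^ 2 * τ * L₁ ^ 3) := by ring
    rw [e] at herr
    nlinarith
  have hfinal' := le_of_mul_le_mul_left hfinal hτsq
  have hsmall : 4 * C₀ ^ 2 * τ * L₁ ^ 3 ≤ η' / 2 := by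
    have h1 : τ * K = 2 * (4 * C₀ ^ 2 * τ * L₁ ^ 3) + 8 * τ * L₁ ^ 3 := by
      rw [hK]; ring
    have h2 : 0 ≤ 8 * τ * L₁ ^ 3 := by positivity
    linarith
  have hfin : ‖b‖ ^ 2 ≤ (⟪a, c⟫).re + η' := by linarith
  rw [ev_one] at hfin
  exact hfin

end Crest.Agent.ModRec
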